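import Vale.Agent.Lib.P066.Defs

/-!
# P066: abstract algebra of the window operators

All the algebra behind the `Y`-basis, over an arbitrary commutative ring with `q` invertible.
-/

namespace P066

open Finset

/-- The sequence `u_0 = 0`, `u_(a+1) = e_a • u₁ - Y u_a`. -/
def uSeq {K M1 : Type*} [CommRing K] [AddCommGroup M1] [Module K M1]
    (e : ℕ → K) (u1 : M1) (Y : M1 →ₗ[K] M1) : ℕ → M1
  | 0 => 0
  | a + 1 => e a • u1 - Y (uSeq e u1 Y a)

/-- The data and relations of the window algebra. -/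
structure Alg (K M1 M2 : Type*) [CommRing K] [AddCommGroup M1] [Module K M1]
    [AddCommGroup M2] [Module K M2] where
  q : K
  qi : K
  hq : q * qi = 1
  e : ℕ → K
  he0 : e 0 = 1
  u1 : M1
  T : M2 →ₗ[K] M2
  pi : M2 →ₗ[K] M2
  A : M1 →ₗ[K] M2
  B : M2 →ₗ[K] M1
  Y : M1 →ₗ[K] M1
  B1 : M1 →ₗ[K] K
  hT : ∀ ψ, T (T ψ) = (q - 1) • T ψ + q • ψ
  hpi2 : ∀ ψ, pi (pi (T ψ)) = T (pi (pi ψ))
  hpiA : ∀ φ, pi (A φ) = - T (A (Y φ))
  hBpi : ∀ ψ, B (pi ψ) = - Y (B (T ψ))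
  hvac : T (A u1) = q • A u1
  hBA : ∀ φ, B (A φ) = B1 φ • u1 - Y φ
  hB1 : ∀ a, B1 (uSeq e u1 Y a) = qnum q a * e a

namespace Alg

variable {K M1 M2 : Type*} [CommRing K] [AddCommGroup M1] [Module K M1]
  [AddCommGroup M2] [Module K M2] (D : Alg K M1 M2)

/-- `u a` -/
abbrev u (a : ℕ) : M1 := uSeq D.e D.u1 D.Y a

theorem u_zero : D.u 0 = 0 := rfl
theorem u_succ (a : ℕ) : D.u (a + 1) = D.e a • D.u1 - D.Y (D.u a) := rfl
theorem u_one : D.u 1 = D.u1 := by
  simp [u_succ, u_zero, D.he0]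
theorem Y_u (a : ℕ) : D.Y (D.u a) = D.e a • D.u1 - D.u (a + 1) := by
  rw [u_succ]; abel

/-- `y₁` -/
noncomputable def y1 : M2 →ₗ[K] M2 := (-D.qi) • ((D.T - (D.q - 1) • LinearMap.id) ∘ₗ D.pi)
/-- `y₂` -/
noncomputable def y2 : M2 →ₗ[K] M2 := (-D.qi) • (D.pi ∘ₗ D.T)

theorem y1_apply (ψ : M2) : D.y1 ψ = (-D.qi) • (D.T (D.pi ψ) - (D.q - 1) • D.pi ψ) := by
  simp [y1]
theorem y2_apply (ψ : M2) : D.y2 ψ = (-D.qi) • D.pi (D.T ψ) := by
  simp [y2]

theorem qi_q_smul {M : Type*} [AddCommGroup M] [Module K M] (v : M) : D.qi • D.q • v = v := by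
  rw [smul_smul, mul_comm, D.hq, one_smul]

theorem q_qi_smul {M : Type*} [AddCommGroup M] [Module K M] (v : M) : D.q • D.qi • v = v := by
  rw [smul_smul, D.hq, one_smul]

theorem T_y1 (ψ : M2) : D.T (D.y1 ψ) = - D.pi ψ := by
  rw [y1_apply]
  simp only [map_smul, map_sub, D.hT]
  have : (-D.qi) • ((D.q - 1) • D.T (D.pi ψ) + D.q • D.pi ψ - (D.q - 1) • D.T (D.pi ψ))
      = - (D.qi • D.q • D.pi ψ) := by module
  rw [this, qi_q_smul]

theorem y2_T (ψ : M2) : D.y2 (D.T ψ) = (D.q - 1) • D.y2 ψ - D.pi ψ := by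
  rw [y2_apply, y2_apply, D.hT]
  simp only [map_add, map_smul]
  have h : (-D.qi) • ((D.q - 1) • D.pi (D.T ψ) + D.q • D.pi ψ)
      = (D.q - 1) • (-D.qi) • D.pi (D.T ψ) - D.qi • D.q • D.pi ψ := by module
  rw [h, qi_q_smul]

theorem T_y1' (ψ : M2) : D.T (D.y1 ψ) = D.y2 (D.T ψ) - (D.q - 1) • D.y2 ψ := by
  rw [T_y1, y2_T]; abel

theorem T_y2 (ψ : M2) : D.T (D.y2 ψ) = D.y1 (D.T ψ) + (D.q - 1) • D.y2 ψ := by
  rw [y2_apply, y1_apply]
  simp only [map_smul]
  module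

theorem y1_y2 (ψ : M2) : D.y1 (D.y2 ψ) = D.qi • D.pi (D.pi ψ) := by
  rw [y2_apply, y1_apply]
  simp only [map_smul, map_neg, D.hpi2, D.hT]
  have h : (-D.qi) • ((-D.qi) • ((D.q - 1) • D.T (D.pi (D.pi ψ)) + D.q • D.pi (D.pi ψ))
      - (D.q - 1) • (-D.qi) • D.T (D.pi (D.pi ψ))) = D.qi • D.qi • D.q • D.pi (D.pi ψ) := by module
  rw [h, qi_q_smul]

theorem y2_y1 (ψ : M2) : D.y2 (D.y1 ψ) = D.qi • D.pi (D.pi ψ) := by
  rw [y2_apply, T_y1]
  simp

theorem y_comm (ψ : M2) : D.y1 (D.y2 ψ) = D.y2 (D.y1 ψ) := by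
  rw [y1_y2, y2_y1]

theorem y1_A (φ : M1) : D.y1 (D.A φ) = D.A (D.Y φ) := by
  rw [y1_apply, D.hpiA]
  simp only [map_neg, D.hT]
  have h : (-D.qi) • (-((D.q - 1) • D.T (D.A (D.Y φ)) + D.q • D.A (D.Y φ))
      - (D.q - 1) • -D.T (D.A (D.Y φ))) = D.qi • D.q • D.A (D.Y φ) := by module
  rw [h, qi_q_smul]

theorem BT_y1 (ψ : M2) : D.B (D.T (D.y1 ψ)) = D.Y (D.B (D.T ψ)) := by
  rw [T_y1]; simp [D.hBpi]

theorem B_y2 (ψ : M2) : D.B (D.y2 ψ) = (D.qi * (D.q - 1)) • D.Y (D.B (D.T ψ)) + D.Y (D.B ψ) := by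
  rw [y2_apply]
  simp only [map_smul, D.hBpi, map_neg, D.hT, map_add]
  have h : (-D.qi) • -((D.q - 1) • D.Y (D.B (D.T ψ)) + D.q • D.Y (D.B ψ))
      = (D.qi * (D.q - 1)) • D.Y (D.B (D.T ψ)) + D.qi • D.q • D.Y (D.B ψ) := by module
  rw [h, qi_q_smul]

/-- `B y₂ ψ = q Y B ψ` on `T`-symmetric `ψ`. -/
theorem B_y2_sym (ψ : M2) (h : D.T ψ = D.q • ψ) : D.B (D.y2 ψ) = D.q • D.Y (D.B ψ) := by
  rw [B_y2, h]
  simp only [map_smul]
  have h : (D.qi * (D.q - 1)) • D.q • D.Y (D.B ψ) + D.Y (D.B ψ)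
      = (D.q - 1) • D.qi • D.q • D.Y (D.B ψ) + D.Y (D.B ψ) := by module
  rw [h, qi_q_smul]
  module

theorem pi_of_sym (ψ : M2) (h : D.T ψ = D.q • ψ) : D.pi ψ = - D.y2 ψ := by
  rw [y2_apply, h]
  simp only [map_smul]
  have : (-D.qi) • D.q • D.pi ψ = - (D.qi • D.q • D.pi ψ) := by module
  rw [this, qi_q_smul, neg_neg]

/-! ### Products `w a b = u_a * u_b` in the one-colour module -/

/-- `w a b` -/
noncomputable def w (a : ℕ) : ℕ → M1
  | 0 => 0
  | b + 1 => D.e b • D.u a - D.Y (w a b)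

theorem w_zero (a : ℕ) : D.w a 0 = 0 := rfl
theorem w_succ (a b : ℕ) : D.w a (b + 1) = D.e b • D.u a - D.Y (D.w a b) := rfl

theorem w_zero_left (b : ℕ) : D.w 0 b = 0 := by
  induction b with
  | zero => rfl
  | succ b ih => simp [w_succ, ih, u_zero]

theorem w_one (a : ℕ) : D.w a 1 = D.u a := by
  simp [w_succ, w_zero, D.he0]

theorem w_one_left (b : ℕ) : D.w 1 b = D.u b := by
  induction b with
  | zero => rfl
  | succ b ih => rw [w_succ, ih, u_one, u_succ]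

theorem w_succ_left (a b : ℕ) : D.w (a + 1) b = D.e a • D.u b - D.Y (D.w a b) := by
  induction b with
  | zero => simp [w_zero, u_zero]
  | succ b ih =>
    rw [w_succ, w_succ, ih]
    simp only [u_succ, map_sub, map_smul]
    module

theorem w_swap (a b : ℕ) :
    D.w a (b + 1) = D.w (a + 1) b + D.e b • D.u a - D.e a • D.u b := by
  rw [w_succ, w_succ_left]; abel

/-! ### The elements `U a b` -/

/-- `U a b = u_b(y₂) A u_a` -/
noncomputable def U (a : ℕ) : ℕ → M2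
  | 0 => 0
  | b + 1 => D.e b • D.A (D.u a) - D.y2 (U a b)

theorem U_zero (a : ℕ) : D.U a 0 = 0 := rfl
theorem U_succ (a b : ℕ) : D.U a (b + 1) = D.e b • D.A (D.u a) - D.y2 (D.U a b) := rfl

theorem U_one (a : ℕ) : D.U a 1 = D.A (D.u a) := by
  simp [U_succ, U_zero, D.he0]

theorem U_zero_left (b : ℕ) : D.U 0 b = 0 := by
  induction b with
  | zero => rfl
  | succ b ih => simp [U_succ, ih, u_zero]

theorem y2_U (a b : ℕ) : D.y2 (D.U a b) = D.e b • D.A (D.u a) - D.U a (b + 1) := by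
  rw [U_succ]; abel

theorem y1_U (a b : ℕ) : D.y1 (D.U a b) = D.e a • D.U 1 b - D.U (a + 1) b := by
  induction b with
  | zero => simp [U_zero]
  | succ b ih =>
    rw [U_succ, U_succ, U_succ]
    simp only [map_sub, map_smul, y1_A, y_comm, ih, Y_u, u_one]
    module

theorem U_succ_left (a b : ℕ) : D.U (a + 1) b = D.e a • D.U 1 b - D.y1 (D.U a b) := by
  rw [y1_U]; abel

/-! ### The symmetric elements `P c` -/

/-- `P c` -/
noncomputable def P : ℕ → M2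
  | 0 => 0
  | c + 1 => D.A (D.u c) - D.y2 (P c)

theorem P_zero : D.P 0 = 0 := rfl
theorem P_succ (c : ℕ) : D.P (c + 1) = D.A (D.u c) - D.y2 (D.P c) := rfl

theorem P_one : D.P 1 = 0 := by
  simp [P_succ, P_zero, u_zero]

theorem P_two : D.P 2 = D.A D.u1 := by
  rw [show (2:ℕ) = 1 + 1 from rfl, D.P_succ 1, P_one]; simp [u_one]

/-- The simultaneous induction on the symmetric elements. -/
theorem P_package (c : ℕ) :
    D.P (c + 1) = D.U 1 c - D.y1 (D.P c) ∧ D.T (D.P c) = D.q • D.P c ∧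
      D.T (D.U 1 c) = D.A (D.u c) + (D.q - 1) • D.P (c + 1) := by
  induction c with
  | zero =>
    refine ⟨?_, ?_, ?_⟩
    · simp [P_one, P_zero, U_zero]
    · simp [P_zero]
    · simp [U_zero, u_zero, P_one]
  | succ c ih =>
    obtain ⟨ha, hb, hc⟩ := ih
    have hb' : D.T (D.P (c + 1)) = D.q • D.P (c + 1) := by
      have h1 : D.T (D.P (c + 1)) = D.T (D.U 1 c) - D.T (D.y1 (D.P c)) := by
        rw [ha]; simp
      rw [h1, hc, T_y1', hb]
      simp only [map_smul]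
      rw [D.P_succ c]
      module
    have ha' : D.P (c + 1 + 1) = D.U 1 (c + 1) - D.y1 (D.P (c + 1)) := by
      have h1 : D.y2 (D.P (c + 1)) = D.y2 (D.U 1 c) - D.y2 (D.y1 (D.P c)) := by
        rw [ha]; simp
      have h2 : D.y1 (D.P (c + 1)) = D.A (D.Y (D.u c)) - D.y1 (D.y2 (D.P c)) := by
        rw [P_succ]; simp [y1_A]
      rw [D.P_succ (c + 1), U_succ, h1, h2, D.u_succ c, y_comm, u_one]
      simp only [map_sub, map_smul]
      abel
    refine ⟨ha', hb', ?_⟩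
    have hAu : D.A (D.u (c + 1)) = D.e c • D.A D.u1 - D.y1 (D.A (D.u c)) := by
      rw [u_succ, y1_A]; simp
    have e1 : D.T (D.U 1 (c + 1)) = D.e c • (D.q • D.A D.u1) - D.y1 (D.T (D.U 1 c))
        - (D.q - 1) • D.y2 (D.U 1 c) := by
      rw [U_succ]
      simp only [map_sub, map_smul, u_one, D.hvac, T_y2]
      abel
    rw [e1, hc, D.P_succ (c + 1), hAu]
    -- the remaining identity uses both recursions for `P (c+1)`
    have h3 : D.y1 (D.P (c + 1)) = D.y1 (D.A (D.u c)) - D.y1 (D.y2 (D.P c)) := by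
      rw [P_succ]; simp
    have h4 : D.y2 (D.P (c + 1)) = D.y2 (D.U 1 c) - D.y2 (D.y1 (D.P c)) := by
      rw [ha]; simp
    simp only [map_add, map_sub, map_smul]
    rw [h3, h4, y_comm]
    module

theorem T_P (c : ℕ) : D.T (D.P c) = D.q • D.P c := (D.P_package c).2.1

theorem T_U_one (c : ℕ) : D.T (D.U 1 c) = D.A (D.u c) + (D.q - 1) • D.P (c + 1) :=
  (D.P_package c).2.2

theorem pi_P (c : ℕ) : D.pi (D.P c) = D.P (c + 1) - D.A (D.u c) := by
  rw [pi_of_sym D _ (D.T_P c), P_succ]; abel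

theorem qnum_succ' (q : K) (c : ℕ) : qnum q (c + 1) = 1 + q * qnum q c := by
  unfold qnum
  rw [Finset.sum_range_succ', Finset.mul_sum]
  simp only [pow_succ', pow_zero]
  ring

theorem qnum_succ (q : K) (c : ℕ) : qnum q (c + 1) = qnum q c + q ^ c := by
  unfold qnum
  rw [Finset.sum_range_succ]

theorem qnum_zero (q : K) : qnum q 0 = 0 := rfl

theorem qnum_mul (q : K) (c : ℕ) : (q - 1) * qnum q c = q ^ c - 1 := by
  induction c with
  | zero => simp [qnum_zero]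
  | succ c ih => rw [qnum_succ, mul_add, ih]; ring

theorem B_P (c : ℕ) : D.B (D.P (c + 1)) = qnum D.q c • D.u (c + 1) := by
  induction c with
  | zero => simp [P_one, qnum_zero]
  | succ c ih =>
    rw [D.P_succ (c + 1), map_sub, B_y2_sym D _ (D.T_P _), ih, D.hBA, D.hB1]
    simp only [map_smul]
    rw [Y_u, qnum_succ']
    module

/-! ### The values of `B` and `B T` on `U` -/

theorem BA_u (a : ℕ) : D.B (D.A (D.u a)) = (qnum D.q a * D.e a) • D.u1 - D.Y (D.u a) := by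
  rw [D.hBA, D.hB1]

theorem BT_U_one (m : ℕ) : D.B (D.T (D.U 1 (m + 1)))
    = D.q ^ (m + 1) • D.u (m + 2) + (D.q * qnum D.q m * D.e (m + 1)) • D.u1 := by
  rw [T_U_one, map_add, map_smul, D.B_P (m + 1), BA_u, Y_u, smul_smul, qnum_mul, qnum_succ']
  module

theorem BT_U (a m : ℕ) : D.B (D.T (D.U a (m + 1)))
    = D.q ^ (m + 1) • D.w a (m + 2) + (D.q * qnum D.q m * D.e (m + 1)) • D.u a := by
  induction a with
  | zero => simp [U_zero_left, w_zero_left, u_zero]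
  | succ a ih =>
    rw [U_succ_left]
    simp only [map_sub, map_smul, BT_y1]
    rw [ih, BT_U_one, w_succ_left, D.u_succ a]
    simp only [map_add, map_smul]
    module

theorem hqi : D.qi * D.q = 1 := by rw [mul_comm, D.hq]

theorem B_U (a m : ℕ) : D.B (D.U a (m + 1))
    = D.q ^ m • (D.w (a + 1) (m + 1) - D.e a • D.u (m + 1))
      + (qnum D.q a * D.e a) • D.u (m + 1) := by
  induction m with
  | zero =>
    rw [U_one, BA_u, w_one, u_one, D.u_succ a]
    module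
  | succ m ih =>
    have hs1 : (D.qi * (D.q - 1)) * D.q ^ (m + 1) = (D.q - 1) * D.q ^ m := by
      linear_combination ((D.q - 1) * D.q ^ m) * D.hqi
    have hs2 : (D.qi * (D.q - 1)) * (D.q * qnum D.q m * D.e (m + 1))
        = (D.q ^ m - 1) * D.e (m + 1) := by
      have h := qnum_mul D.q m
      linear_combination (D.e (m + 1) * (D.qi * D.q)) * h + ((D.q ^ m - 1) * D.e (m + 1)) * D.hqi
    have key : (D.qi * (D.q - 1)) • D.Y (D.B (D.T (D.U a (m + 1))))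
        = ((D.q - 1) * D.q ^ m) • D.Y (D.w a (m + 2))
          + ((D.q ^ m - 1) * D.e (m + 1)) • D.Y (D.u a) := by
      rw [BT_U]
      simp only [map_add, map_smul, smul_add, smul_smul]
      rw [hs1, hs2]
    rw [U_succ, map_sub, map_smul, B_y2, key, ih, BA_u]
    simp only [map_add, map_sub, map_smul]
    rw [D.w_swap a (m + 1), D.w_succ (a + 1) (m + 1), D.u_succ (m + 1), D.u_succ a]
    simp only [map_add, map_sub, map_smul]
    module

/-! ### The action of `pi` on `U`, `T U`. -/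

theorem pi_eq (ψ : M2) : D.pi ψ = - D.T (D.y1 ψ) := by rw [T_y1, neg_neg]

theorem pi_T (ψ : M2) : D.pi (D.T ψ) = - (D.q • D.y2 ψ) := by
  rw [y2_apply]
  have : D.q • (-D.qi) • D.pi (D.T ψ) = - (D.q • D.qi • D.pi (D.T ψ)) := by module
  rw [this, q_qi_smul, neg_neg]

theorem pi_U (a b : ℕ) : D.pi (D.U a b) = D.T (D.U (a + 1) b) - D.e a • D.T (D.U 1 b) := by
  rw [pi_eq, y1_U]
  simp only [map_sub, map_smul]
  abel

theorem pi_TU (a b : ℕ) :
    D.pi (D.T (D.U a b)) = D.q • D.U a (b + 1) - (D.q * D.e b) • D.A (D.u a) := by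
  rw [pi_T, y2_U]
  module

/-- `pi` on the first-type generators, with `T U 1 _` resolved. -/
theorem pi_U' (a b : ℕ) : D.pi (D.U a b)
    = D.T (D.U (a + 1) b) - D.e a • (D.A (D.u b) + (D.q - 1) • D.P (b + 1)) := by
  rw [pi_U, T_U_one]

/-! ### The `Y` basis -/

/-- The even elements `Y(c, 2l)`. -/
noncomputable def Yev (c l : ℕ) : M2 :=
  ∑ i ∈ range l, D.q ^ i • (D.U (c - 1 - i) (i + 1) + D.T (D.U (c - 1 - i) (i + 1)))
    + ∑ j ∈ range l, (D.q ^ j * (D.q ^ (2 * l - 2 * j) - 1) * D.e (c - j - 1)) • D.P (j + 1)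

/-- The odd elements `Y(c, 2l+1)`. -/
noncomputable def Yod (c l : ℕ) : M2 :=
  ∑ i ∈ range l, D.q ^ i • (D.U (c - 1 - i) (i + 1) + D.T (D.U (c - 1 - i) (i + 1)))
    + D.q ^ l • D.U (c - 1 - l) (l + 1)
    + ∑ j ∈ range (l + 1), (D.q ^ j * (D.q ^ (2 * l + 1 - 2 * j) - 1) * D.e (c - j - 1)) • D.P (j + 1)

/-- `h(c, 2l)` -/
noncomputable def hE (c l : ℕ) : M1 :=
  ∑ i ∈ range (l + 1), (D.q ^ i * D.e i) • D.u (c - i)
    + ∑ i ∈ range l, (D.q ^ (2 * l - i) * D.e (c - i - 1)) • D.u (i + 1)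

/-- `h(c, 2l+1)` -/
noncomputable def hO (c l : ℕ) : M1 :=
  ∑ i ∈ range (l + 1), (D.q ^ i * D.e i) • D.u (c - i)
    + ∑ i ∈ range (l + 1), (D.q ^ (2 * l + 1 - i) * D.e (c - i - 1)) • D.u (i + 1)

theorem sum_shift {M : Type*} [AddCommGroup M] (f : ℕ → M) (l : ℕ) :
    ∑ i ∈ range (l + 1), f i = ∑ i ∈ range l, f (i + 1) + f 0 :=
  Finset.sum_range_succ' f l

theorem pi_Yev (c l : ℕ) (hc : l ≤ c) :
    D.pi (D.Yev c l) + D.A (D.hE c l) = D.Yod (c + 1) l := by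
  -- abbreviations
  have hcc : ∀ i, c + 1 - 1 - i = c - i := fun i => by omega
  have h1 : ∀ i ∈ range l, D.pi (D.q ^ i • (D.U (c - 1 - i) (i + 1) + D.T (D.U (c - 1 - i) (i + 1))))
      = D.q ^ i • (D.T (D.U (c - i) (i + 1))
          - D.e (c - 1 - i) • (D.A (D.u (i + 1)) + (D.q - 1) • D.P (i + 1 + 1))
          + (D.q • D.U (c - (i + 1)) (i + 1 + 1) - (D.q * D.e (i + 1)) • D.A (D.u (c - (i + 1))))) := by
    intro i hi
    have hi' : i < l := Finset.mem_range.mp hi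
    have e1 : c - 1 - i + 1 = c - i := by omega
    have e2 : c - 1 - i = c - (i + 1) := by omega
    rw [map_smul, map_add, pi_U', pi_TU, e1, e2]
  have h2 : ∀ j ∈ range l, D.pi ((D.q ^ j * (D.q ^ (2 * l - 2 * j) - 1) * D.e (c - j - 1)) • D.P (j + 1))
      = (D.q ^ j * (D.q ^ (2 * l - 2 * j) - 1) * D.e (c - j - 1)) • (D.P (j + 1 + 1) - D.A (D.u (j + 1))) := by
    intro j _
    rw [map_smul, pi_P]
  have h3 : ∑ i ∈ range (l + 1), (D.q ^ i * D.e i) • D.A (D.u (c - i))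
      = ∑ i ∈ range l, (D.q ^ (i + 1) * D.e (i + 1)) • D.A (D.u (c - (i + 1)))
        + D.A (D.u c) := by
    rw [sum_shift]
    simp [D.he0]
  have h4 : ∑ i ∈ range l, D.q ^ i • (D.U (c + 1 - 1 - i) (i + 1) + D.T (D.U (c + 1 - 1 - i) (i + 1)))
        + D.q ^ l • D.U (c + 1 - 1 - l) (l + 1)
      = ∑ i ∈ range l, (D.q ^ i • D.T (D.U (c - i) (i + 1))
            + D.q ^ (i + 1) • D.U (c - (i + 1)) (i + 1 + 1)) + D.A (D.u c) := by
    simp only [hcc]
    have : ∑ i ∈ range l, D.q ^ i • (D.U (c - i) (i + 1) + D.T (D.U (c - i) (i + 1)))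
        = ∑ i ∈ range l, D.q ^ i • D.T (D.U (c - i) (i + 1))
          + ∑ i ∈ range l, D.q ^ i • D.U (c - i) (i + 1) := by
      rw [← Finset.sum_add_distrib]
      exact Finset.sum_congr rfl (fun i _ => by module)
    rw [this, add_assoc, ← Finset.sum_range_succ (fun i => D.q ^ i • D.U (c - i) (i + 1)) l, sum_shift,
      Finset.sum_add_distrib]
    simp [U_one, add_assoc]
  have h5 : ∑ j ∈ range (l + 1), (D.q ^ j * (D.q ^ (2 * l + 1 - 2 * j) - 1) * D.e (c + 1 - j - 1)) • D.P (j + 1)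
      = ∑ i ∈ range l, (D.q ^ (i + 1) * (D.q ^ (2 * l + 1 - 2 * (i + 1)) - 1) * D.e (c + 1 - (i + 1) - 1))
          • D.P (i + 1 + 1) := by
    rw [sum_shift]
    simp [P_one]
  unfold Yev Yod hE
  rw [map_add, map_add, map_sum, map_sum, Finset.sum_congr rfl h1, map_sum, Finset.sum_congr rfl h2,
    h4, h5]
  simp only [map_add, map_sum, map_smul]
  rw [h3]
  have key : ∀ i ∈ range l,
      D.q ^ i • (D.T (D.U (c - i) (i + 1))
          - D.e (c - 1 - i) • (D.A (D.u (i + 1)) + (D.q - 1) • D.P (i + 1 + 1))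
          + (D.q • D.U (c - (i + 1)) (i + 1 + 1) - (D.q * D.e (i + 1)) • D.A (D.u (c - (i + 1)))))
        + (D.q ^ i * (D.q ^ (2 * l - 2 * i) - 1) * D.e (c - i - 1)) • (D.P (i + 1 + 1) - D.A (D.u (i + 1)))
        + (D.q ^ (i + 1) * D.e (i + 1)) • D.A (D.u (c - (i + 1)))
        + (D.q ^ (2 * l - i) * D.e (c - i - 1)) • D.A (D.u (i + 1))
      = (D.q ^ i • D.T (D.U (c - i) (i + 1)) + D.q ^ (i + 1) • D.U (c - (i + 1)) (i + 1 + 1))
        + (D.q ^ (i + 1) * (D.q ^ (2 * l + 1 - 2 * (i + 1)) - 1) * D.e (c + 1 - (i + 1) - 1))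
          • D.P (i + 1 + 1) := by
    intro i hi
    have hi' : i < l := Finset.mem_range.mp hi
    obtain ⟨d, rfl⟩ : ∃ d, l = i + 1 + d := ⟨l - (i + 1), by omega⟩
    have e1 : c - 1 - i = c - i - 1 := by omega
    have e2 : c + 1 - (i + 1) - 1 = c - i - 1 := by omega
    have e3 : 2 * (i + 1 + d) - 2 * i = 2 * d + 2 := by omega
    have e4 : 2 * (i + 1 + d) - i = i + 2 * d + 2 := by omega
    have e5 : 2 * (i + 1 + d) + 1 - 2 * (i + 1) = 2 * d + 1 := by omega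
    rw [e1, e2, e3, e4, e5]
    module
  have key2 := Finset.sum_congr rfl key
  simp only [Finset.sum_add_distrib] at key2
  rw [Finset.sum_add_distrib]
  linear_combination (norm := module) key2

theorem pi_Yod (c l : ℕ) (hc : l + 1 ≤ c) :
    D.pi (D.Yod c l) + D.A (D.hO c l) = D.Yev (c + 1) (l + 1) := by
  have hcc : ∀ i, c + 1 - 1 - i = c - i := fun i => by omega
  have h1 : ∀ i ∈ range l, D.pi (D.q ^ i • (D.U (c - 1 - i) (i + 1) + D.T (D.U (c - 1 - i) (i + 1))))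
      = D.q ^ i • (D.T (D.U (c - i) (i + 1))
          - D.e (c - 1 - i) • (D.A (D.u (i + 1)) + (D.q - 1) • D.P (i + 1 + 1))
          + (D.q • D.U (c - (i + 1)) (i + 1 + 1) - (D.q * D.e (i + 1)) • D.A (D.u (c - (i + 1))))) := by
    intro i hi
    have hi' : i < l := Finset.mem_range.mp hi
    have e1 : c - 1 - i + 1 = c - i := by omega
    have e2 : c - 1 - i = c - (i + 1) := by omega
    rw [map_smul, map_add, pi_U', pi_TU, e1, e2]
  have h1' : D.pi (D.q ^ l • D.U (c - 1 - l) (l + 1)) = D.q ^ l • (D.T (D.U (c - l) (l + 1))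
          - D.e (c - 1 - l) • (D.A (D.u (l + 1)) + (D.q - 1) • D.P (l + 1 + 1))) := by
    have e1 : c - 1 - l + 1 = c - l := by omega
    rw [map_smul, pi_U', e1]
  have h2 : ∀ j ∈ range (l + 1), D.pi ((D.q ^ j * (D.q ^ (2 * l + 1 - 2 * j) - 1) * D.e (c - j - 1)) • D.P (j + 1))
      = (D.q ^ j * (D.q ^ (2 * l + 1 - 2 * j) - 1) * D.e (c - j - 1)) • (D.P (j + 1 + 1) - D.A (D.u (j + 1))) := by
    intro j _
    rw [map_smul, pi_P]
  have h3 : ∑ i ∈ range (l + 1), (D.q ^ i * D.e i) • D.A (D.u (c - i))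
      = ∑ i ∈ range l, (D.q ^ (i + 1) * D.e (i + 1)) • D.A (D.u (c - (i + 1)))
        + D.A (D.u c) := by
    rw [sum_shift]
    simp [D.he0]
  have h4 : ∑ i ∈ range (l + 1), D.q ^ i • (D.U (c + 1 - 1 - i) (i + 1) + D.T (D.U (c + 1 - 1 - i) (i + 1)))
      = ∑ i ∈ range l, (D.q ^ i • D.T (D.U (c - i) (i + 1))
            + D.q ^ (i + 1) • D.U (c - (i + 1)) (i + 1 + 1)) + D.A (D.u c)
        + D.q ^ l • D.T (D.U (c - l) (l + 1)) := by
    simp only [hcc]
    have : ∑ i ∈ range (l + 1), D.q ^ i • (D.U (c - i) (i + 1) + D.T (D.U (c - i) (i + 1)))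
        = ∑ i ∈ range (l + 1), D.q ^ i • D.T (D.U (c - i) (i + 1))
          + ∑ i ∈ range (l + 1), D.q ^ i • D.U (c - i) (i + 1) := by
      rw [← Finset.sum_add_distrib]
      exact Finset.sum_congr rfl (fun i _ => by module)
    rw [this, sum_shift (fun i => D.q ^ i • D.U (c - i) (i + 1)) l, Finset.sum_range_succ,
      Finset.sum_add_distrib]
    simp only [pow_zero, one_smul, tsub_zero, zero_add, U_one]
    abel
  have h5 : ∑ j ∈ range (l + 1), (D.q ^ j * (D.q ^ (2 * (l + 1) - 2 * j) - 1) * D.e (c + 1 - j - 1)) • D.P (j + 1)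
      = ∑ i ∈ range l, (D.q ^ (i + 1) * (D.q ^ (2 * (l + 1) - 2 * (i + 1)) - 1) * D.e (c + 1 - (i + 1) - 1))
          • D.P (i + 1 + 1) := by
    rw [sum_shift]
    simp [P_one]
  unfold Yod Yev hO
  rw [map_add, map_add, map_add, map_sum, Finset.sum_congr rfl h1, h1', map_sum, Finset.sum_congr rfl h2,
    h4, h5]
  simp only [map_add, map_sum, map_smul]
  rw [h3, Finset.sum_range_succ _ l, Finset.sum_range_succ _ l]
  have key : ∀ i ∈ range l,
      D.q ^ i • (D.T (D.U (c - i) (i + 1))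
          - D.e (c - 1 - i) • (D.A (D.u (i + 1)) + (D.q - 1) • D.P (i + 1 + 1))
          + (D.q • D.U (c - (i + 1)) (i + 1 + 1) - (D.q * D.e (i + 1)) • D.A (D.u (c - (i + 1)))))
        + (D.q ^ i * (D.q ^ (2 * l + 1 - 2 * i) - 1) * D.e (c - i - 1)) • (D.P (i + 1 + 1) - D.A (D.u (i + 1)))
        + (D.q ^ (i + 1) * D.e (i + 1)) • D.A (D.u (c - (i + 1)))
        + (D.q ^ (2 * l + 1 - i) * D.e (c - i - 1)) • D.A (D.u (i + 1))
      = (D.q ^ i • D.T (D.U (c - i) (i + 1)) + D.q ^ (i + 1) • D.U (c - (i + 1)) (i + 1 + 1))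
        + (D.q ^ (i + 1) * (D.q ^ (2 * (l + 1) - 2 * (i + 1)) - 1) * D.e (c + 1 - (i + 1) - 1))
          • D.P (i + 1 + 1) := by
    intro i hi
    have hi' : i < l := Finset.mem_range.mp hi
    obtain ⟨d, rfl⟩ : ∃ d, l = i + 1 + d := ⟨l - (i + 1), by omega⟩
    have e1 : c - 1 - i = c - i - 1 := by omega
    have e2 : c + 1 - (i + 1) - 1 = c - i - 1 := by omega
    have e3 : 2 * (i + 1 + d) + 1 - 2 * i = 2 * d + 3 := by omega
    have e4 : 2 * (i + 1 + d) + 1 - i = i + 2 * d + 3 := by omega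
    have e5 : 2 * (i + 1 + d + 1) - 2 * (i + 1) = 2 * d + 2 := by omega
    rw [e1, e2, e3, e4, e5]
    module
  have hlast : D.q ^ l • (D.T (D.U (c - l) (l + 1))
          - D.e (c - 1 - l) • (D.A (D.u (l + 1)) + (D.q - 1) • D.P (l + 1 + 1)))
        + (D.q ^ l * (D.q ^ (2 * l + 1 - 2 * l) - 1) * D.e (c - l - 1)) • (D.P (l + 1 + 1) - D.A (D.u (l + 1)))
        + (D.q ^ (2 * l + 1 - l) * D.e (c - l - 1)) • D.A (D.u (l + 1))
      = D.q ^ l • D.T (D.U (c - l) (l + 1)) := by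
    have e1 : c - 1 - l = c - l - 1 := by omega
    have e3 : 2 * l + 1 - 2 * l = 1 := by omega
    have e4 : 2 * l + 1 - l = l + 1 := by omega
    rw [e1, e3, e4]
    module
  have key2 := Finset.sum_congr rfl key
  simp only [Finset.sum_add_distrib] at key2
  rw [Finset.sum_add_distrib]
  linear_combination (norm := module) key2 + hlast

/-! ### The values of `B` on the `Y` basis. -/

/-- the partial sums in `G` -/
theorem G_sum (c i : ℕ) (hi : i + 1 ≤ c) :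
    D.w (c - i) (i + 1) - D.e (c - 1 - i) • D.u (i + 1)
      = ∑ m ∈ range (i + 1), D.e m • D.u (c - m)
        - ∑ n ∈ range (i + 1), D.e (c - n - 1) • D.u (n + 1) := by
  induction i with
  | zero =>
    simp [w_one, D.he0]
  | succ i ih =>
    have ih' := ih (by omega)
    have e1 : c - (i + 1) + 1 = c - i := by omega
    have e2 : c - 1 - (i + 1) = c - (i + 1) - 1 := by omega
    have e3 : c - 1 - i = c - (i + 1) := by omega
    have hsw := D.w_swap (c - (i + 1)) (i + 1)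
    rw [e1] at hsw
    rw [hsw, Finset.sum_range_succ _ (i + 1), Finset.sum_range_succ _ (i + 1), ← sub_eq_zero]
    rw [e3] at ih'
    have e4 : c - 1 - (i + 1) = c - (i + 1) - 1 := by omega
    rw [e4]
    linear_combination (norm := module) ih'

/-- `B` on the first-type generators. -/
theorem B_Ui (c i : ℕ) (hi : i + 1 ≤ c) : D.B (D.U (c - 1 - i) (i + 1))
    = D.q ^ i • (∑ m ∈ range (i + 1), D.e m • D.u (c - m)
        - ∑ n ∈ range (i + 1), D.e (c - n - 1) • D.u (n + 1))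
      + (qnum D.q (c - 1 - i) * D.e (c - i - 1)) • D.u (i + 1) := by
  have e1 : c - 1 - i + 1 = c - i := by omega
  have e2 : c - 1 - i = c - i - 1 := by omega
  rw [B_U, ← D.G_sum c i hi, e1, e2]

/-- `B T` on the first-type generators. -/
theorem BT_Ui (c i : ℕ) (hi : i + 1 ≤ c) : D.B (D.T (D.U (c - 1 - i) (i + 1)))
    = D.q ^ (i + 1) • (∑ m ∈ range (i + 1), D.e m • D.u (c - m)
        - ∑ n ∈ range (i + 1), D.e (c - n - 1) • D.u (n + 1))
      + (D.q * qnum D.q (i + 1) * D.e (i + 1)) • D.u (c - 1 - i) := by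
  have e1 : c - 1 - i + 1 = c - i := by omega
  rw [BT_U, ← D.G_sum c i hi, D.w_swap (c - 1 - i) (i + 1), e1, qnum_succ]
  module

/-- Right-hand sides of the `B` formula, even case. -/
noncomputable def bfE (c l : ℕ) : M1 :=
  ∑ i ∈ range (l + 1), (D.q ^ i * qnum D.q (2 * l - i) * D.e i) • D.u (c - i)
    + ∑ i ∈ range l, (D.q ^ (2 * l - i) * qnum D.q (c + i - 2 * l - 1) * D.e (c - i - 1)) • D.u (i + 1)

/-- Right-hand sides of the `B` formula, odd case. -/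
noncomputable def bfO (c l : ℕ) : M1 :=
  ∑ i ∈ range (l + 1), (D.q ^ i * qnum D.q (2 * l + 1 - i) * D.e i) • D.u (c - i)
    + ∑ i ∈ range (l + 1),
        (D.q ^ (2 * l + 1 - i) * qnum D.q (c + i - 2 * l - 2) * D.e (c - i - 1)) • D.u (i + 1)

theorem Yod_eq (c l : ℕ) : D.Yod c l = D.Yev c l + D.q ^ l • D.U (c - 1 - l) (l + 1)
    + ∑ j ∈ range (l + 1), (D.q ^ (2 * l - j) * (D.q - 1) * D.e (c - j - 1)) • D.P (j + 1) := by
  unfold Yod Yev
  have h : ∑ j ∈ range (l + 1), (D.q ^ j * (D.q ^ (2 * l + 1 - 2 * j) - 1) * D.e (c - j - 1)) • D.P (j + 1)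
      = ∑ j ∈ range l, (D.q ^ j * (D.q ^ (2 * l - 2 * j) - 1) * D.e (c - j - 1)) • D.P (j + 1)
        + ∑ j ∈ range (l + 1), (D.q ^ (2 * l - j) * (D.q - 1) * D.e (c - j - 1)) • D.P (j + 1) := by
    have h0 : ∑ j ∈ range l, (D.q ^ j * (D.q ^ (2 * l - 2 * j) - 1) * D.e (c - j - 1)) • D.P (j + 1)
        = ∑ j ∈ range (l + 1), (D.q ^ j * (D.q ^ (2 * l - 2 * j) - 1) * D.e (c - j - 1)) • D.P (j + 1) := by
      rw [Finset.sum_range_succ]
      have : 2 * l - 2 * l = 0 := by omega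
      simp [this]
    rw [h0, ← Finset.sum_add_distrib]
    refine Finset.sum_congr rfl (fun j hj => ?_)
    have hj' : j < l + 1 := Finset.mem_range.mp hj
    obtain ⟨d, rfl⟩ : ∃ d, l = j + d := ⟨l - j, by omega⟩
    have e1 : 2 * (j + d) + 1 - 2 * j = 2 * d + 1 := by omega
    have e2 : 2 * (j + d) - 2 * j = 2 * d := by omega
    have e3 : 2 * (j + d) - j = j + 2 * d := by omega
    rw [e1, e2, e3]
    module
  rw [h]
  abel

theorem Yev_succ_eq (c l : ℕ) : D.Yev c (l + 1) = D.Yod c l + D.q ^ l • D.T (D.U (c - 1 - l) (l + 1))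
    + ∑ j ∈ range (l + 1), (D.q ^ (2 * l + 1 - j) * (D.q - 1) * D.e (c - j - 1)) • D.P (j + 1) := by
  unfold Yod Yev
  have h : ∑ j ∈ range (l + 1), (D.q ^ j * (D.q ^ (2 * (l + 1) - 2 * j) - 1) * D.e (c - j - 1)) • D.P (j + 1)
      = ∑ j ∈ range (l + 1), (D.q ^ j * (D.q ^ (2 * l + 1 - 2 * j) - 1) * D.e (c - j - 1)) • D.P (j + 1)
        + ∑ j ∈ range (l + 1), (D.q ^ (2 * l + 1 - j) * (D.q - 1) * D.e (c - j - 1)) • D.P (j + 1) := by
    rw [← Finset.sum_add_distrib]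
    refine Finset.sum_congr rfl (fun j hj => ?_)
    have hj' : j < l + 1 := Finset.mem_range.mp hj
    obtain ⟨d, rfl⟩ : ∃ d, l = j + d := ⟨l - j, by omega⟩
    have e1 : 2 * (j + d) + 1 - 2 * j = 2 * d + 1 := by omega
    have e2 : 2 * (j + d + 1) - 2 * j = 2 * d + 2 := by omega
    have e3 : 2 * (j + d) + 1 - j = j + 2 * d + 1 := by omega
    rw [e1, e2, e3]
    module
  rw [h, Finset.sum_range_succ _ l]
  have h2 : D.q ^ l • (D.U (c - 1 - l) (l + 1) + D.T (D.U (c - 1 - l) (l + 1)))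
      = D.q ^ l • D.U (c - 1 - l) (l + 1) + D.q ^ l • D.T (D.U (c - 1 - l) (l + 1)) := by module
  rw [h2]
  abel

end Alg
end P066
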