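import Vale.Agent.Lib.P066.Abstract

/-!
# P066: the values of `B` on the `Y` basis and the transition formulas
-/

namespace P066

open Finset

namespace Alg

variable {K M1 M2 : Type*} [CommRing K] [AddCommGroup M1] [Module K M1]
  [AddCommGroup M2] [Module K M2] (D : Alg K M1 M2)

/-- `B` on a `(q-1)`-multiple combination of the `P`s. -/
theorem B_corr (a b : ℕ → K) (l : ℕ) :
    D.B (∑ j ∈ range l, (a j * (D.q - 1) * b j) • D.P (j + 1))
      = ∑ j ∈ range l, (a j * (D.q ^ j - 1) * b j) • D.u (j + 1) := by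
  rw [map_sum]
  refine Finset.sum_congr rfl (fun j _ => ?_)
  rw [map_smul, B_P, smul_smul]
  congr 1
  linear_combination (a j * b j) * qnum_mul D.q j

theorem B_Yev_zero (c : ℕ) : D.B (D.Yev c 0) = D.bfE c 0 := by
  simp [Yev, bfE, qnum_zero]

theorem B_step_EO (c l : ℕ) (hc : 2 * l + 3 ≤ c) (ih : D.B (D.Yev c l) = D.bfE c l) :
    D.B (D.Yod c l) = D.bfO c l := by
  rw [Yod_eq, map_add, map_add, ih, map_smul, D.B_Ui c l (by omega), D.B_corr]
  unfold bfE bfO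
  have hA : ∑ i ∈ range (l + 1), (D.q ^ i * qnum D.q (2 * l - i) * D.e i) • D.u (c - i)
      + (D.q ^ l * D.q ^ l) • ∑ m ∈ range (l + 1), D.e m • D.u (c - m)
      = ∑ i ∈ range (l + 1), (D.q ^ i * qnum D.q (2 * l + 1 - i) * D.e i) • D.u (c - i) := by
    rw [Finset.smul_sum, ← Finset.sum_add_distrib]
    refine Finset.sum_congr rfl (fun i hi => ?_)
    have hi' : i < l + 1 := Finset.mem_range.mp hi
    obtain ⟨d, rfl⟩ : ∃ d, l = i + d := ⟨l - i, by omega⟩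
    have e1 : 2 * (i + d) - i = i + 2 * d := by omega
    have e2 : 2 * (i + d) + 1 - i = i + 2 * d + 1 := by omega
    rw [e1, e2, qnum_succ]
    module
  have hB : ∑ i ∈ range l, (D.q ^ (2 * l - i) * qnum D.q (c + i - 2 * l - 1) * D.e (c - i - 1)) • D.u (i + 1)
      - (D.q ^ l * D.q ^ l) • ∑ n ∈ range l, D.e (c - n - 1) • D.u (n + 1)
      + ∑ j ∈ range l, (D.q ^ (2 * l - j) * (D.q ^ j - 1) * D.e (c - j - 1)) • D.u (j + 1)
      = ∑ i ∈ range l, (D.q ^ (2 * l + 1 - i) * qnum D.q (c + i - 2 * l - 2) * D.e (c - i - 1)) • D.u (i + 1) := by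
    rw [Finset.smul_sum, ← Finset.sum_sub_distrib, ← Finset.sum_add_distrib]
    refine Finset.sum_congr rfl (fun i hi => ?_)
    have hi' : i < l := Finset.mem_range.mp hi
    obtain ⟨d, rfl⟩ : ∃ d, l = i + 1 + d := ⟨l - (i + 1), by omega⟩
    obtain ⟨r, rfl⟩ : ∃ r, c = 2 * (i + 1 + d) + 3 + r := ⟨c - (2 * (i + 1 + d) + 3), by omega⟩
    have e1 : 2 * (i + 1 + d) - i = i + 2 * d + 2 := by omega
    have e2 : 2 * (i + 1 + d) + 1 - i = i + 2 * d + 3 := by omega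
    have e3 : 2 * (i + 1 + d) + 3 + r + i - 2 * (i + 1 + d) - 1 = i + r + 1 + 1 := by omega
    have e4 : 2 * (i + 1 + d) + 3 + r + i - 2 * (i + 1 + d) - 2 = i + r + 1 := by omega
    rw [e1, e2, e3, e4, qnum_succ']
    module
  have hB2 : D.q ^ l * (qnum D.q (c - 1 - l) * D.e (c - l - 1))
      - (D.q ^ l * D.q ^ l) * D.e (c - l - 1)
      + D.q ^ (2 * l - l) * (D.q ^ l - 1) * D.e (c - l - 1)
      = D.q ^ (2 * l + 1 - l) * qnum D.q (c + l - 2 * l - 2) * D.e (c - l - 1) := by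
    obtain ⟨r, rfl⟩ : ∃ r, c = 2 * l + 3 + r := ⟨c - (2 * l + 3), by omega⟩
    have e1 : 2 * l - l = l := by omega
    have e2 : 2 * l + 1 - l = l + 1 := by omega
    have e3 : 2 * l + 3 + r - 1 - l = l + r + 1 + 1 := by omega
    have e4 : 2 * l + 3 + r + l - 2 * l - 2 = l + r + 1 := by omega
    rw [e1, e2, e3, e4, qnum_succ']
    ring
  rw [Finset.sum_range_succ (fun n => D.e (c - n - 1) • D.u (n + 1)) l,
    Finset.sum_range_succ (fun j => (D.q ^ (2 * l - j) * (D.q ^ j - 1) * D.e (c - j - 1)) • D.u (j + 1)) l,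
    Finset.sum_range_succ (fun i => (D.q ^ (2 * l + 1 - i) * qnum D.q (c + i - 2 * l - 2) * D.e (c - i - 1)) • D.u (i + 1)) l,
    ← hA, ← hB, ← hB2]
  module

theorem B_step_OE (c l : ℕ) (hc : 2 * l + 4 ≤ c) (ih : D.B (D.Yod c l) = D.bfO c l) :
    D.B (D.Yev c (l + 1)) = D.bfE c (l + 1) := by
  rw [Yev_succ_eq, map_add, map_add, ih, map_smul, D.BT_Ui c l (by omega), D.B_corr]
  unfold bfE bfO
  have hA : ∑ i ∈ range (l + 1), (D.q ^ i * qnum D.q (2 * l + 1 - i) * D.e i) • D.u (c - i)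
      + (D.q ^ l * D.q ^ (l + 1)) • ∑ m ∈ range (l + 1), D.e m • D.u (c - m)
      = ∑ i ∈ range (l + 1), (D.q ^ i * qnum D.q (2 * (l + 1) - i) * D.e i) • D.u (c - i) := by
    rw [Finset.smul_sum, ← Finset.sum_add_distrib]
    refine Finset.sum_congr rfl (fun i hi => ?_)
    have hi' : i < l + 1 := Finset.mem_range.mp hi
    obtain ⟨d, rfl⟩ : ∃ d, l = i + d := ⟨l - i, by omega⟩
    have e1 : 2 * (i + d) + 1 - i = i + 2 * d + 1 := by omega
    have e2 : 2 * (i + d + 1) - i = i + 2 * d + 1 + 1 := by omega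
    rw [e1, e2, qnum_succ D.q (i + 2 * d + 1)]
    module
  have hB : ∑ i ∈ range (l + 1), (D.q ^ (2 * l + 1 - i) * qnum D.q (c + i - 2 * l - 2) * D.e (c - i - 1)) • D.u (i + 1)
      - (D.q ^ l * D.q ^ (l + 1)) • ∑ n ∈ range (l + 1), D.e (c - n - 1) • D.u (n + 1)
      + ∑ j ∈ range (l + 1), (D.q ^ (2 * l + 1 - j) * (D.q ^ j - 1) * D.e (c - j - 1)) • D.u (j + 1)
      = ∑ i ∈ range (l + 1), (D.q ^ (2 * (l + 1) - i) * qnum D.q (c + i - 2 * (l + 1) - 1) * D.e (c - i - 1)) • D.u (i + 1) := by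
    rw [Finset.smul_sum, ← Finset.sum_sub_distrib, ← Finset.sum_add_distrib]
    refine Finset.sum_congr rfl (fun i hi => ?_)
    have hi' : i < l + 1 := Finset.mem_range.mp hi
    obtain ⟨d, rfl⟩ : ∃ d, l = i + d := ⟨l - i, by omega⟩
    obtain ⟨r, rfl⟩ : ∃ r, c = 2 * (i + d) + 4 + r := ⟨c - (2 * (i + d) + 4), by omega⟩
    have e1 : 2 * (i + d) + 1 - i = i + 2 * d + 1 := by omega
    have e2 : 2 * (i + d + 1) - i = i + 2 * d + 2 := by omega
    have e3 : 2 * (i + d) + 4 + r + i - 2 * (i + d) - 2 = i + r + 1 + 1 := by omega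
    have e4 : 2 * (i + d) + 4 + r + i - 2 * (i + d + 1) - 1 = i + r + 1 := by omega
    rw [e1, e2, e3, e4, qnum_succ']
    module
  have hlast : (D.q ^ (l + 1) * qnum D.q (2 * (l + 1) - (l + 1)) * D.e (l + 1)) • D.u (c - (l + 1))
      = (D.q ^ l * (D.q * qnum D.q (l + 1) * D.e (l + 1))) • D.u (c - 1 - l) := by
    have e1 : 2 * (l + 1) - (l + 1) = l + 1 := by omega
    have e2 : c - (l + 1) = c - 1 - l := by omega
    rw [e1, e2]
    module
  rw [Finset.sum_range_succ (fun i => (D.q ^ i * qnum D.q (2 * (l + 1) - i) * D.e i) • D.u (c - i)) (l + 1),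
    hlast, ← hA, ← hB]
  module

theorem B_Yev_Yod (c l : ℕ) :
    (2 * l + 2 ≤ c → D.B (D.Yev c l) = D.bfE c l) ∧ (2 * l + 3 ≤ c → D.B (D.Yod c l) = D.bfO c l) := by
  induction l with
  | zero =>
    exact ⟨fun _ => D.B_Yev_zero c, fun hc => D.B_step_EO c 0 hc (D.B_Yev_zero c)⟩
  | succ l ih =>
    have h1 : 2 * (l + 1) + 2 ≤ c → D.B (D.Yev c (l + 1)) = D.bfE c (l + 1) := fun hc =>
      D.B_step_OE c l (by omega) (ih.2 (by omega))
    exact ⟨h1, fun hc => D.B_step_EO c (l + 1) hc (h1 (by omega))⟩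

/-- The positive remainder, even case. -/
noncomputable def gE (c l : ℕ) : M1 :=
  ∑ i ∈ range (l + 1), (D.q ^ (i + 1) * qnum D.q (2 * l - i - 1) * D.e i) • D.u (c - i)
    + ∑ i ∈ range l, (D.q ^ (2 * l - i + 1) * qnum D.q (c + i - 2 * l - 2) * D.e (c - i - 1)) • D.u (i + 1)

/-- The positive remainder, odd case. -/
noncomputable def gO (c l : ℕ) : M1 :=
  ∑ i ∈ range (l + 1), (D.q ^ (i + 1) * qnum D.q (2 * l - i) * D.e i) • D.u (c - i)
    + ∑ i ∈ range (l + 1),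
        (D.q ^ (2 * l + 2 - i) * qnum D.q (c + i - 2 * l - 3) * D.e (c - i - 1)) • D.u (i + 1)

theorem bfE_eq (c l : ℕ) (hl : 1 ≤ l) (hc : 2 * l + 2 ≤ c) : D.bfE c l = D.hE c l + D.gE c l := by
  unfold bfE hE gE
  have h1 : ∑ i ∈ range (l + 1), (D.q ^ i * qnum D.q (2 * l - i) * D.e i) • D.u (c - i)
      = ∑ i ∈ range (l + 1), (D.q ^ i * D.e i) • D.u (c - i)
        + ∑ i ∈ range (l + 1), (D.q ^ (i + 1) * qnum D.q (2 * l - i - 1) * D.e i) • D.u (c - i) := by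
    rw [← Finset.sum_add_distrib]
    refine Finset.sum_congr rfl (fun i hi => ?_)
    have hi' : i < l + 1 := Finset.mem_range.mp hi
    have e1 : 2 * l - i = (2 * l - i - 1) + 1 := by omega
    conv_lhs => rw [e1, qnum_succ']
    module
  have h2 : ∑ i ∈ range l, (D.q ^ (2 * l - i) * qnum D.q (c + i - 2 * l - 1) * D.e (c - i - 1)) • D.u (i + 1)
      = ∑ i ∈ range l, (D.q ^ (2 * l - i) * D.e (c - i - 1)) • D.u (i + 1)
        + ∑ i ∈ range l, (D.q ^ (2 * l - i + 1) * qnum D.q (c + i - 2 * l - 2) * D.e (c - i - 1)) • D.u (i + 1) := by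
    rw [← Finset.sum_add_distrib]
    refine Finset.sum_congr rfl (fun i hi => ?_)
    have hi' : i < l := Finset.mem_range.mp hi
    have e1 : c + i - 2 * l - 1 = (c + i - 2 * l - 2) + 1 := by omega
    rw [e1, qnum_succ']
    module
  rw [h1, h2]
  abel

theorem bfO_eq (c l : ℕ) (hc : 2 * l + 3 ≤ c) : D.bfO c l = D.hO c l + D.gO c l := by
  unfold bfO hO gO
  have h1 : ∑ i ∈ range (l + 1), (D.q ^ i * qnum D.q (2 * l + 1 - i) * D.e i) • D.u (c - i)
      = ∑ i ∈ range (l + 1), (D.q ^ i * D.e i) • D.u (c - i)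
        + ∑ i ∈ range (l + 1), (D.q ^ (i + 1) * qnum D.q (2 * l - i) * D.e i) • D.u (c - i) := by
    rw [← Finset.sum_add_distrib]
    refine Finset.sum_congr rfl (fun i hi => ?_)
    have hi' : i < l + 1 := Finset.mem_range.mp hi
    have e1 : 2 * l + 1 - i = (2 * l - i) + 1 := by omega
    rw [e1, qnum_succ']
    module
  have h2 : ∑ i ∈ range (l + 1), (D.q ^ (2 * l + 1 - i) * qnum D.q (c + i - 2 * l - 2) * D.e (c - i - 1)) • D.u (i + 1)
      = ∑ i ∈ range (l + 1), (D.q ^ (2 * l + 1 - i) * D.e (c - i - 1)) • D.u (i + 1)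
        + ∑ i ∈ range (l + 1), (D.q ^ (2 * l + 2 - i) * qnum D.q (c + i - 2 * l - 3) * D.e (c - i - 1)) • D.u (i + 1) := by
    rw [← Finset.sum_add_distrib]
    refine Finset.sum_congr rfl (fun i hi => ?_)
    have hi' : i < l + 1 := Finset.mem_range.mp hi
    have e1 : c + i - 2 * l - 2 = (c + i - 2 * l - 3) + 1 := by omega
    have e2 : 2 * l + 2 - i = (2 * l + 1 - i) + 1 := by omega
    rw [e1, e2, qnum_succ']
    module
  rw [h1, h2]
  abel

/-- `T₂ = pi + A B` on the even elements. -/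
theorem T2_Yev (c l : ℕ) (hl : 1 ≤ l) (hc : 2 * l + 2 ≤ c) :
    D.pi (D.Yev c l) + D.A (D.B (D.Yev c l)) = D.Yod (c + 1) l + D.A (D.gE c l) := by
  rw [(D.B_Yev_Yod c l).1 hc, D.bfE_eq c l hl hc, map_add, ← add_assoc, D.pi_Yev c l (by omega)]

/-- `T₂ = pi + A B` on the odd elements. -/
theorem T2_Yod (c l : ℕ) (hc : 2 * l + 3 ≤ c) :
    D.pi (D.Yod c l) + D.A (D.B (D.Yod c l)) = D.Yev (c + 1) (l + 1) + D.A (D.gO c l) := by
  rw [(D.B_Yev_Yod c l).2 hc, D.bfO_eq c l hc, map_add, ← add_assoc, D.pi_Yod c l (by omega)]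

/-- `T₂ = pi + A B` on the `P`s. -/
theorem T2_P (m : ℕ) :
    D.pi (D.P (m + 2)) + D.A (D.B (D.P (m + 2))) = D.P (m + 3) + (D.q * qnum D.q m) • D.A (D.u (m + 2)) := by
  rw [pi_P, D.B_P (m + 1), map_smul, qnum_succ']
  module

theorem A_u_two (m : ℕ) : D.A (D.u (m + 2)) = D.Yod (m + 3) 0 := by
  have e : m + 3 - 1 - 0 = m + 2 := by omega
  simp [Yod, e, U_one, P_one]

theorem A_u_one : D.A (D.u 1) = D.P 2 := by
  rw [u_one, P_two]

/-- `B A` on the basis `u`. -/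
theorem BA_u' (a : ℕ) : D.B (D.A (D.u (a + 1)))
    = D.u (a + 2) + (D.q * qnum D.q a * D.e (a + 1)) • D.u1 := by
  rw [BA_u, Y_u, qnum_succ']
  module

end Alg
end P066
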