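import Vale.Agent.Lib.P066.Defs

/-!
# P066: colouring sums and the window operators (Task C)
-/

namespace P066
open Finset
variable {K : Type*} [CommRing K] {N : ℕ}

/-- Factor of the pair of vertices `a < b` coloured `s`, `t`. -/
def edgeF (q : K) (h : ℕ → ℕ) (a b : ℕ) (s t : Fin N) : K :=
  if b ≤ h a then (if s = t then 0 else chi q s t) else 1

/-- Weight of a colouring of the first `k` vertices. -/
def wt (q : K) (x : Fin N → K) (h : ℕ → ℕ) (k : ℕ) (f : Fin k → Fin N) : K :=
  ∏ b : Fin k, (x (f b) * ∏ a : Fin k, if a < b then edgeF q h a b (f a) (f b) else 1)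

def Z0 (q : K) (x : Fin N → K) (h : ℕ → ℕ) (k : ℕ) : K := ∑ f : Fin k → Fin N, wt q x h k f

def Z1 (q : K) (x : Fin N → K) (h : ℕ → ℕ) (k : ℕ) (c : Fin N) : K :=
  ∑ f : Fin (k + 1) → Fin N, if f (Fin.last k) = c then wt q x h (k + 1) f else 0

def Z2 (q : K) (x : Fin N → K) (h : ℕ → ℕ) (k : ℕ) (b c : Fin N) : K :=
  ∑ f : Fin (k + 2) → Fin N,
    if f (Fin.last (k + 1)) = c ∧ f (Fin.last k).castSucc = b then wt q x h (k + 2) f else 0

/-- Peeling the last vertex. -/
theorem wt_succ (q : K) (x : Fin N → K) (h : ℕ → ℕ) (k : ℕ) (f : Fin (k + 1) → Fin N) :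
    wt q x h (k + 1) f = wt q x h k (fun i => f i.castSucc) *
      (x (f (Fin.last k)) * ∏ a : Fin k, edgeF q h a k (f a.castSucc) (f (Fin.last k))) := by
  unfold wt
  rw [Fin.prod_univ_castSucc]
  congr 1
  · refine Finset.prod_congr rfl fun b _ => ?_
    congr 1
    rw [Fin.prod_univ_castSucc]
    have : ¬ (Fin.last k < b.castSucc) := by
      simp [Fin.lt_def, Fin.val_last]
    simp only [this, if_false, mul_one, Fin.castSucc_lt_castSucc_iff, Fin.val_castSucc]
  · congr 1
    rw [Fin.prod_univ_castSucc]
    simp only [Fin.castSucc_lt_last, if_true, lt_self_iff_false, if_false, mul_one, Fin.val_castSucc,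
      Fin.val_last]

/-- Reindexing sums over colourings by the last colour. -/
theorem sum_snoc {A : Type*} [AddCommMonoid A] (k : ℕ) (F : (Fin (k + 1) → Fin N) → A) :
    ∑ f, F f = ∑ g : Fin k → Fin N, ∑ c : Fin N, F (Fin.snoc (α := fun _ => Fin N) g c) := by
  rw [← Fintype.sum_prod_type' (f := fun (g : Fin k → Fin N) (c : Fin N) =>
    F (Fin.snoc (α := fun _ => Fin N) g c))]
  refine (Fintype.sum_equiv ?_ _ _ ?_).symm
  · exact (Equiv.prodComm _ _).trans (Fin.snocEquiv (fun _ => Fin N))
  · intro p
    simp [Fin.snocEquiv]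

theorem Z0_zero (q : K) (x : Fin N → K) (h : ℕ → ℕ) : Z0 q x h 0 = 1 := by
  simp [Z0, wt]

theorem Z0_succ (q : K) (x : Fin N → K) (h : ℕ → ℕ) (k : ℕ) :
    Z0 q x h (k + 1) = B1c (Z1 q x h k) := by
  unfold Z0 B1c Z1
  rw [Finset.sum_comm]
  refine Finset.sum_congr rfl fun f _ => ?_
  simp

/-- Explicit form of `Z1` through the colourings of the first `k` vertices. -/
theorem Z1_eq (q : K) (x : Fin N → K) (h : ℕ → ℕ) (k : ℕ) (c : Fin N) :
    Z1 q x h k c = ∑ g : Fin k → Fin N, wt q x h k g *
      (x c * ∏ a : Fin k, edgeF q h a k (g a) c) := by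
  unfold Z1
  rw [sum_snoc]
  refine Finset.sum_congr rfl fun g _ => ?_
  rw [Finset.sum_eq_single c]
  · simp only [Fin.snoc_last, if_true]
    rw [wt_succ]
    simp only [Fin.snoc_castSucc, Fin.snoc_last]
  · intro d _ hd
    simp [Fin.snoc_last, hd]
  · simp

/-- vertex `k` has no back-edge -/
theorem Z1_of_Z0 (q : K) (x : Fin N → K) (h : ℕ → ℕ) (k : ℕ) (hk : ∀ a < k, h a < k) :
    Z1 q x h k = fun c => Z0 q x h k * x c := by
  funext c
  rw [Z1_eq, Z0, Finset.sum_mul]
  refine Finset.sum_congr rfl fun g _ => ?_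
  have : ∏ a : Fin k, edgeF q h a k (g a) c = 1 := by
    refine Finset.prod_eq_one fun a _ => ?_
    have := hk a a.2
    unfold edgeF
    rw [if_neg (by omega)]
  rw [this, mul_one]

/-- Explicit form of `Z2` through the colourings of the first `k + 1` vertices. -/
theorem Z2_eq (q : K) (x : Fin N → K) (h : ℕ → ℕ) (k : ℕ) (b c : Fin N) :
    Z2 q x h k b c = ∑ g : Fin (k + 1) → Fin N, if g (Fin.last k) = b then
      wt q x h (k + 1) g * (x c * ∏ a : Fin (k + 1), edgeF q h a (k + 1) (g a) c) else 0 := by
  unfold Z2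
  rw [sum_snoc]
  refine Finset.sum_congr rfl fun g _ => ?_
  rw [Finset.sum_eq_single c]
  · simp only [Fin.snoc_last, true_and, Fin.snoc_castSucc]
    by_cases hb : g (Fin.last k) = b
    · simp only [hb, if_true]
      rw [wt_succ]
      simp only [Fin.snoc_castSucc, Fin.snoc_last]
    · simp [hb]
  · intro d _ hd
    simp [Fin.snoc_last, hd]
  · simp

/-- vertex `j+1` has a back-edge from `j` only -/
theorem Z2_of_one (q : K) (x : Fin N → K) (h : ℕ → ℕ) (j : ℕ) (h1 : j + 1 ≤ h j)
    (h2 : ∀ a < j, h a < j + 1) :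
    Z2 q x h j = Ac q x (Z1 q x h j) := by
  funext b c
  rw [Z2_eq]
  unfold Ac
  by_cases hbc : b = c
  · subst hbc
    simp only [if_true]
    refine Finset.sum_eq_zero fun g _ => ?_
    by_cases hb : g (Fin.last j) = b
    · simp only [hb, if_true]
      rw [Fin.prod_univ_castSucc]
      simp [edgeF, h1, hb]
    · simp [hb]
  · rw [if_neg hbc]
    unfold Z1
    rw [Finset.mul_sum]
    simp only [mul_ite, mul_zero]
    refine Finset.sum_congr rfl fun g _ => ?_
    by_cases hb : g (Fin.last j) = b
    · simp only [hb, if_true]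
      rw [Fin.prod_univ_castSucc]
      have h3 : ∏ a : Fin j, edgeF q h (a.castSucc : Fin (j + 1)) (j + 1) (g a.castSucc) c = 1 := by
        refine Finset.prod_eq_one fun a _ => ?_
        have := h2 a a.2
        unfold edgeF
        rw [if_neg]
        simp only [Fin.val_castSucc]
        omega
      rw [h3]
      simp only [edgeF, Fin.val_last, h1, if_true, hb, hbc, if_false]
      ring
    · simp [hb]

/-- Two adjacent vertices `j`, `j + 1` of equal colour: the weight vanishes. -/
theorem wt_zero_of_eq (q : K) (x : Fin N → K) (h : ℕ → ℕ) (j : ℕ) (h1 : j + 1 ≤ h j)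
    (g : Fin (j + 2) → Fin N) (hg : g (Fin.last j).castSucc = g (Fin.last (j + 1))) :
    wt q x h (j + 2) g = 0 := by
  rw [wt_succ, Fin.prod_univ_castSucc]
  simp [edgeF, h1, hg]

/-- vertex `j+2` has back-edges from `j` and `j+1`, and no others -/
theorem Z2_succ (q : K) (x : Fin N → K) (h : ℕ → ℕ) (hmono : Monotone h) (hup : ∀ i, h i ≤ i + 2)
    (j : ℕ) (h2 : j + 2 ≤ h j) : Z2 q x h (j + 1) = T2c q x (Z2 q x h j) := by
  funext b c
  rw [Z2_eq]
  unfold T2c
  have h1 : j + 1 ≤ h j := by omega
  -- the edge factors of the new vertex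
  have key : ∀ g : Fin (j + 2) → Fin N, ∏ a : Fin (j + 2), edgeF q h a (j + 2) (g a) c =
      edgeF q h j (j + 2) (g (Fin.last j).castSucc) c *
      edgeF q h (j + 1) (j + 2) (g (Fin.last (j + 1))) c := by
    intro g
    rw [Fin.prod_univ_castSucc, Fin.prod_univ_castSucc]
    have h3 : ∏ a : Fin j, edgeF q h ((a.castSucc : Fin (j + 1)).castSucc : Fin (j + 2)) (j + 2)
        (g a.castSucc.castSucc) c = 1 := by
      refine Finset.prod_eq_one fun a _ => ?_
      have := hup a
      have := a.2
      unfold edgeF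
      rw [if_neg]
      simp only [Fin.val_castSucc]
      omega
    rw [h3, one_mul]
    simp only [Fin.val_castSucc, Fin.val_last]
  have e1 : ∀ s t : Fin N, edgeF q h j (j + 2) s t = if s = t then 0 else chi q s t := by
    intro s t
    simp [edgeF, h2]
  have e2 : ∀ s t : Fin N, edgeF q h (j + 1) (j + 2) s t = if s = t then 0 else chi q s t := by
    intro s t
    have : j + 2 ≤ h (j + 1) := h2.trans (hmono (Nat.le_succ j))
    simp [edgeF, this]
  by_cases hbc : b = c
  · subst hbc
    simp only [if_true]
    refine Finset.sum_eq_zero fun g _ => ?_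
    by_cases hb : g (Fin.last (j + 1)) = b
    · simp only [hb, if_true]
      rw [key, e2]
      simp [hb]
    · simp [hb]
  · rw [if_neg hbc, Finset.mul_sum]
    have this : ∀ a : Fin N, (x c * if a = b ∨ a = c then (0 : K) else
          chi q a c * chi q b c * Z2 q x h j a b) =
        ∑ g : Fin (j + 2) → Fin N, if g (Fin.last j).castSucc = a then
          (if g (Fin.last (j + 1)) = b then wt q x h (j + 2) g *
            (x c * ∏ a : Fin (j + 2), edgeF q h a (j + 2) (g a) c) else 0) else 0 := by
      intro a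
      by_cases hab : a = b
      · subst hab
        simp only [true_or, if_true, mul_zero]
        symm
        refine Finset.sum_eq_zero fun g _ => ?_
        by_cases h3 : g (Fin.last j).castSucc = a
        · by_cases h4 : g (Fin.last (j + 1)) = a
          · simp only [h3, h4, if_true]
            rw [wt_zero_of_eq q x h j h1 g (h3.trans h4.symm), zero_mul]
          · simp [h4]
        · simp [h3]
      by_cases hac : a = c
      · subst hac
        simp only [or_true, if_true, mul_zero]
        symm
        refine Finset.sum_eq_zero fun g _ => ?_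
        by_cases h3 : g (Fin.last j).castSucc = a
        · by_cases h4 : g (Fin.last (j + 1)) = b
          · simp only [h3, h4, if_true]
            rw [key, e1]
            simp [h3]
          · simp [h4]
        · simp [h3]
      · rw [if_neg (by tauto), Z2]
        simp only [Finset.mul_sum]
        refine Finset.sum_congr rfl fun g _ => ?_
        by_cases h3 : g (Fin.last j).castSucc = a
        · by_cases h4 : g (Fin.last (j + 1)) = b
          · simp only [h3, h4, and_self, if_true]
            rw [key, e1, e2]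
            simp only [h3, h4, if_neg hac, if_neg hbc]
            ring
          · simp [h4]
        · simp [h3]
    simp only [this]
    rw [Finset.sum_comm]
    refine Finset.sum_congr rfl fun g _ => ?_
    simp

/-- marginal when `j`, `j+1` are adjacent -/
theorem Z1_marg (q : K) (x : Fin N → K) (h : ℕ → ℕ) (j : ℕ) (h1 : j + 1 ≤ h j) :
    Z1 q x h (j + 1) = Bc (Z2 q x h j) := by
  funext c
  unfold Z1 Bc Z2
  have : ∀ a : Fin N, (if a = c then (0 : K) else
      ∑ f : Fin (j + 2) → Fin N,
        if f (Fin.last (j + 1)) = c ∧ f (Fin.last j).castSucc = a then wt q x h (j + 2) f else 0) =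
      ∑ f : Fin (j + 2) → Fin N,
        if a = c then 0 else
          if f (Fin.last (j + 1)) = c ∧ f (Fin.last j).castSucc = a then wt q x h (j + 2) f else 0 := by
    intro a
    by_cases hac : a = c <;> simp [hac]
  simp only [this]
  rw [Finset.sum_comm]
  refine Finset.sum_congr rfl fun g _ => ?_
  by_cases h3 : g (Fin.last (j + 1)) = c
  · simp only [h3, true_and, if_true]
    by_cases h4 : g (Fin.last j).castSucc = c
    · rw [wt_zero_of_eq q x h j h1 g (h4.trans h3.symm)]
      simp
    · rw [Finset.sum_eq_single (g (Fin.last j).castSucc)]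
      · simp [h4]
      · intro d _ hd
        by_cases hdc : d = c
        · simp [hdc]
        · simp [hdc, Ne.symm hd]
      · simp
  · simp [h3]

/-- Proper colouring / ascents, as in the final statement. -/
def IsProperC (h : ℕ → ℕ) {n : ℕ} (f : Fin n → Fin N) : Prop :=
  ∀ a b : Fin n, a < b → b.val ≤ h a.val → f a ≠ f b
def ascC (h : ℕ → ℕ) {n : ℕ} (f : Fin n → Fin N) : ℕ :=
  ((univ : Finset (Fin n × Fin n)).filter
    (fun p => p.1 < p.2 ∧ p.2.val ≤ h p.1.val ∧ f p.1 < f p.2)).card

open Classical in
theorem wt_eq (q : K) (x : Fin N → K) (h : ℕ → ℕ) {n : ℕ} (f : Fin n → Fin N) :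
    wt q x h n f = if IsProperC h f then q ^ ascC h f * ∏ a, x (f a) else 0 := by
  unfold wt
  rw [Finset.prod_mul_distrib]
  by_cases hP : IsProperC h f
  · rw [if_pos hP, mul_comm]
    congr 1
    have h1 : ∀ a b : Fin n, (if a < b then edgeF q h a b (f a) (f b) else 1) =
        if (a < b ∧ b.val ≤ h a.val ∧ f a < f b) then q else 1 := by
      intro a b
      by_cases hab : a < b
      · by_cases hb : b.val ≤ h a.val
        · have := hP a b hab hb
          simp [hab, hb, edgeF, this, chi]
        · simp [hab, hb, edgeF]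
      · simp [hab]
    simp only [h1]
    rw [Finset.prod_comm, ← Fintype.prod_prod_type' (f := fun (a b : Fin n) =>
      if (a < b ∧ b.val ≤ h a.val ∧ f a < f b) then q else 1)]
    rw [Finset.prod_ite]
    simp [ascC]
  · rw [if_neg hP]
    unfold IsProperC at hP
    push Not at hP
    obtain ⟨a, b, hab, hb, hf⟩ := hP
    have h0 : (∏ b : Fin n, ∏ a : Fin n, if a < b then edgeF q h a b (f a) (f b) else 1) = 0 := by
      refine Finset.prod_eq_zero (Finset.mem_univ b) ?_
      refine Finset.prod_eq_zero (Finset.mem_univ a) ?_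
      simp [hab, edgeF, hb, hf]
    rw [h0, mul_zero]

end P066
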