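import Vale.Agent.Lib.P066.Defs

namespace P066
open Finset

section

variable {K : Type*} [CommRing K] {N : ℕ}

theorem esymK_zero (x : Fin N → K) : esymK x 0 = 1 := by
  simp [esymK]

/-- The product polynomial `∏ (1 + y_d s)`. -/
noncomputable def prodPoly (y : Fin N → K) : Polynomial K :=
  ∏ d : Fin N, (1 + Polynomial.C (y d) * Polynomial.X)

theorem coeff_prodPoly (y : Fin N → K) (a : ℕ) : (prodPoly y).coeff a = esymK y a := by
  classical
  unfold prodPoly esymK
  rw [Finset.prod_one_add, Polynomial.finsetSum_coeff, Finset.powersetCard_eq_filter,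
    Finset.sum_filter]
  refine Finset.sum_congr rfl fun S _ => ?_
  have h : ∏ d ∈ S, (Polynomial.C (y d) * Polynomial.X) =
      Polynomial.C (∏ d ∈ S, y d) * Polynomial.X ^ S.card := by
    rw [Finset.prod_mul_distrib, Finset.prod_const, map_prod]
  rw [h, Polynomial.coeff_C_mul, Polynomial.coeff_X_pow]
  by_cases hS : S.card = a
  · simp [hS]
  · have : a ≠ S.card := fun e => hS e.symm
    simp [hS, this]

theorem esymK_scale (q : K) (x : Fin N → K) (a : ℕ) :
    esymK (fun d => q * x d) a = q ^ a * esymK x a := by
  unfold esymK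
  rw [Finset.mul_sum]
  refine Finset.sum_congr rfl fun S hS => ?_
  rw [Finset.prod_mul_distrib, Finset.prod_const, (Finset.mem_powersetCard.mp hS).2]

/-- `E_p(s)`: colours below `p` carry the factor `q`. -/
noncomputable def Ep (q : K) (x : Fin N → K) (p : ℕ) : Polynomial K :=
  prodPoly (fun d => (if d.val < p then q else 1) * x d)

/-- `E^{(j)}(s)`: the product without the factor of the colour `j`. -/
noncomputable def Eh (q : K) (x : Fin N → K) (j : Fin N) : Polynomial K :=
  ∏ d ∈ univ.erase j, (1 + Polynomial.C ((if d.val < j.val then q else 1) * x d) * Polynomial.X)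

theorem Ep_val (q : K) (x : Fin N → K) (j : Fin N) :
    Ep q x j.val = (1 + Polynomial.C (x j) * Polynomial.X) * Eh q x j := by
  unfold Ep prodPoly Eh
  rw [← Finset.mul_prod_erase univ _ (Finset.mem_univ j)]
  simp

theorem Ep_val_succ (q : K) (x : Fin N → K) (j : Fin N) :
    Ep q x (j.val + 1) = (1 + Polynomial.C (q * x j) * Polynomial.X) * Eh q x j := by
  unfold Ep prodPoly Eh
  rw [← Finset.mul_prod_erase univ _ (Finset.mem_univ j)]
  congr 1
  · simp
  · refine Finset.prod_congr rfl fun d hd => ?_
    have hne : d.val ≠ j.val := fun e => (Finset.mem_erase.mp hd).1 (Fin.ext e)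
    have : d.val < j.val + 1 ↔ d.val < j.val := by omega
    simp only [this]

theorem Ep_step (q : K) (x : Fin N → K) (j : Fin N) :
    Ep q x (j.val + 1) = Ep q x j.val +
      Polynomial.C ((q - 1) * x j) * Polynomial.X * Eh q x j := by
  rw [Ep_val_succ, Ep_val, Polynomial.C_mul, Polynomial.C_mul, Polynomial.C_sub, Polynomial.C_1]
  ring

/-- Telescoping. -/
theorem Ep_tele (q : K) (x : Fin N → K) (p : ℕ) :
    Ep q x p = Ep q x 0 +
      ∑ d : Fin N, if d.val < p then
        Polynomial.C ((q - 1) * x d) * Polynomial.X * Eh q x d else 0 := by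
  induction p with
  | zero => simp
  | succ p ih =>
    by_cases hp : p < N
    · have h := Ep_step q x ⟨p, hp⟩
      simp only at h
      rw [h, ih, add_assoc]
      congr 1
      have : ∀ d : Fin N, (if d.val < p + 1 then
          Polynomial.C ((q - 1) * x d) * Polynomial.X * Eh q x d else 0) =
          (if d.val < p then Polynomial.C ((q - 1) * x d) * Polynomial.X * Eh q x d else 0) +
          (if d = (⟨p, hp⟩ : Fin N) then
            Polynomial.C ((q - 1) * x d) * Polynomial.X * Eh q x d else 0) := by
        intro d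
        by_cases h1 : d.val < p
        · have h2 : d ≠ ⟨p, hp⟩ := fun e => by simp [e] at h1
          have h3 : d.val < p + 1 := by omega
          simp [h1, h2, h3]
        · by_cases h2 : d = ⟨p, hp⟩
          · subst h2
            simp
          · have h3 : ¬ d.val < p + 1 := by
              intro h4
              apply h2
              apply Fin.ext
              simp only
              omega
            simp [h1, h2, h3]
      simp only [this, Finset.sum_add_distrib]
      simp
    · have h : Ep q x (p + 1) = Ep q x p := by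
        unfold Ep
        congr 1
        funext d
        have h1 : d.val < p := by have := d.isLt; omega
        have h2 : d.val < p + 1 := by omega
        simp [h1, h2]
      rw [h, ih]
      congr 1
      refine Finset.sum_congr rfl fun d _ => ?_
      have h1 : d.val < p := by have := d.isLt; omega
      have h2 : d.val < p + 1 := by omega
      simp [h1, h2]

theorem coeff_Ep_zero (q : K) (x : Fin N → K) (a : ℕ) : (Ep q x 0).coeff a = esymK x a := by
  unfold Ep
  rw [coeff_prodPoly]
  simp

theorem coeff_Ep_top (q : K) (x : Fin N → K) (a : ℕ) :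
    (Ep q x N).coeff a = q ^ a * esymK x a := by
  unfold Ep
  rw [coeff_prodPoly, ← esymK_scale]
  congr 1
  funext d
  simp

/-- The coefficient of `E^{(j)}`. -/
noncomputable def Gh (q : K) (x : Fin N → K) (j : Fin N) (a : ℕ) : K := (Eh q x j).coeff a

theorem coeff_X_mul_C (c : K) (P : Polynomial K) (a : ℕ) :
    (Polynomial.C c * Polynomial.X * P).coeff (a + 1) = c * P.coeff a := by
  rw [mul_assoc, Polynomial.coeff_C_mul, Polynomial.coeff_X_mul]

theorem coeff_X_mul_C_zero (c : K) (P : Polynomial K) :
    (Polynomial.C c * Polynomial.X * P).coeff 0 = 0 := by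
  rw [mul_assoc, Polynomial.coeff_C_mul, Polynomial.coeff_X_mul_zero, mul_zero]

theorem Gh_zero (q : K) (x : Fin N → K) (j : Fin N) : Gh q x j 0 = 1 := by
  have h1 := congrArg (fun P => Polynomial.coeff P 0) (Ep_val q x j)
  simp only [add_mul, one_mul, Polynomial.coeff_add, coeff_X_mul_C_zero, add_zero] at h1
  have h2 := congrArg (fun P => Polynomial.coeff P 0) (Ep_tele q x j.val)
  simp only [Polynomial.coeff_add, Polynomial.finsetSum_coeff] at h2
  have h3 : ∀ d : Fin N, (if d.val < j.val then
      Polynomial.C ((q - 1) * x d) * Polynomial.X * Eh q x d else 0).coeff 0 = (0 : K) := by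
    intro d
    split_ifs
    · exact coeff_X_mul_C_zero _ _
    · simp
  simp only [h3, Finset.sum_const_zero, add_zero, coeff_Ep_zero, esymK_zero] at h2
  unfold Gh
  rw [← h1, h2]

theorem Gh_succ (q : K) (x : Fin N → K) (j : Fin N) (a : ℕ) :
    Gh q x j (a + 1) = esymK x (a + 1) - x j * Gh q x j a +
      (q - 1) * ∑ d : Fin N, if d.val < j.val then x d * Gh q x d a else 0 := by
  have h1 := congrArg (fun P => Polynomial.coeff P (a + 1)) (Ep_val q x j)
  simp only [add_mul, one_mul, Polynomial.coeff_add, coeff_X_mul_C] at h1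
  have h2 := congrArg (fun P => Polynomial.coeff P (a + 1)) (Ep_tele q x j.val)
  simp only [Polynomial.coeff_add, Polynomial.finsetSum_coeff] at h2
  have h3 : ∀ d : Fin N, (if d.val < j.val then
      Polynomial.C ((q - 1) * x d) * Polynomial.X * Eh q x d else 0).coeff (a + 1) =
      (q - 1) * (if d.val < j.val then x d * Gh q x d a else 0) := by
    intro d
    split_ifs
    · rw [coeff_X_mul_C, Gh, mul_assoc]
    · simp
  simp only [h3, coeff_Ep_zero] at h2
  rw [← Finset.mul_sum] at h2
  have h4 : Gh q x j (a + 1) = (Eh q x j).coeff (a + 1) := rfl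
  have h5 : Gh q x j a = (Eh q x j).coeff a := rfl
  rw [h4, h5]
  rw [h1] at h2
  linear_combination h2

/-- `u_(a+1)(j) = x_j G_j^a`. -/
theorem uc_succ_eq (q : K) (x : Fin N → K) (a : ℕ) (j : Fin N) :
    uc q x (a + 1) j = x j * Gh q x j a := by
  induction a generalizing j with
  | zero =>
    simp [uc, Yc, esymK_zero, Gh_zero]
  | succ a ih =>
    have e1 : uc q x (a + 1 + 1) j = esymK x (a + 1) * x j - Yc q x (uc q x (a + 1)) j := rfl
    rw [e1, Gh_succ]
    simp only [Yc, ih]
    have e2 : (∑ d : Fin N, if d < j then x d * Gh q x d a else 0) =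
        ∑ d : Fin N, if d.val < j.val then x d * Gh q x d a else 0 := by
      refine Finset.sum_congr rfl fun d _ => ?_
      simp only [Fin.lt_def]
    rw [e2]
    ring

theorem sum_Gh (q : K) (x : Fin N → K) (a : ℕ) :
    (q - 1) * ∑ j : Fin N, x j * Gh q x j a = (q ^ (a + 1) - 1) * esymK x (a + 1) := by
  have h2 := congrArg (fun P => Polynomial.coeff P (a + 1)) (Ep_tele q x N)
  simp only [Polynomial.coeff_add, Polynomial.finsetSum_coeff, coeff_Ep_top, coeff_Ep_zero] at h2
  have h3 : ∀ d : Fin N, (if d.val < N then
      Polynomial.C ((q - 1) * x d) * Polynomial.X * Eh q x d else 0).coeff (a + 1) =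
      (q - 1) * (x d * Gh q x d a) := by
    intro d
    rw [if_pos d.isLt, coeff_X_mul_C, Gh, mul_assoc]
  simp only [h3] at h2
  rw [← Finset.mul_sum] at h2
  linear_combination -h2

end

theorem B1c_uc {K : Type*} [Field K] {N : ℕ} (q : K) (hq : q ≠ 1) (x : Fin N → K) (a : ℕ) :
    B1c (uc q x a) = qnum q a * esymK x a := by
  cases a with
  | zero => simp [B1c, uc, qnum]
  | succ a =>
    have h := sum_Gh q x a
    have h1 : q - 1 ≠ 0 := sub_ne_zero.mpr hq
    apply mul_left_cancel₀ h1
    have h2 : (q - 1) * qnum q (a + 1) = q ^ (a + 1) - 1 := by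
      unfold qnum
      rw [mul_comm]
      exact geom_sum_mul q (a + 1)
    have h3 : B1c (uc q x (a + 1)) = ∑ j, x j * Gh q x j a := by
      unfold B1c
      exact Finset.sum_congr rfl fun j _ => uc_succ_eq q x a j
    rw [h3, h, ← mul_assoc, h2]

end P066
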