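import Vale.Agent.Lib.P066.Defs

/-!
# P066: relations between the colour-level window operators (Task A)
-/

namespace P066

open Finset

variable {K : Type*} [CommRing K] {N : ℕ}

theorem Tc_Tc (q : K) (ψ : Fin N → Fin N → K) :
    Tc q (Tc q ψ) = fun a b => (q - 1) * Tc q ψ a b + q * ψ a b := by
  funext a b
  rcases lt_trichotomy a b with h | h | h
  · have h' : ¬ b < a := not_lt_of_gt h
    simp only [Tc, if_pos h, if_neg h']
  · subst h
    simp only [Tc, lt_irrefl, if_false]
    ring
  · have h' : ¬ a < b := not_lt_of_gt h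
    simp only [Tc, if_pos h, if_neg h']

theorem Tc_vac (q : K) (x : Fin N → K) :
    Tc q (Ac q x x) = fun a b => q * Ac q x x a b := by
  funext a b
  rcases lt_trichotomy a b with h | h | h
  · have h' : ¬ b < a := not_lt_of_gt h
    have hne : a ≠ b := ne_of_lt h
    simp only [Tc, Ac, chi, if_pos h, if_neg h', if_neg hne, if_neg hne.symm]
    ring
  · subst h
    simp only [Tc, Ac, chi, lt_irrefl, if_false, if_true]
  · have h' : ¬ a < b := not_lt_of_gt h
    have hne : b ≠ a := ne_of_lt h
    simp only [Tc, Ac, chi, if_pos h, if_neg h', if_neg hne, if_neg hne.symm]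
    ring

/-- linearity -/
theorem Tc_add (q : K) (ψ ψ' : Fin N → Fin N → K) : Tc q (ψ + ψ') = Tc q ψ + Tc q ψ' := by
  funext a b
  simp only [Tc, Pi.add_apply]
  split_ifs <;> ring

theorem Tc_smul (q s : K) (ψ : Fin N → Fin N → K) : Tc q (s • ψ) = s • Tc q ψ := by
  funext a b
  simp only [Tc, Pi.smul_apply, smul_eq_mul]
  split_ifs <;> ring

theorem Pc_add (q : K) (x : Fin N → K) (ψ ψ' : Fin N → Fin N → K) :
    Pc q x (ψ + ψ') = Pc q x ψ + Pc q x ψ' := by
  funext b c
  simp only [Pc, Pi.add_apply]
  split_ifs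
  · simp
  · have : (∑ a, if a < c ∧ a ≠ b then ψ a b + ψ' a b else 0)
        = (∑ a, if a < c ∧ a ≠ b then ψ a b else 0) + ∑ a, if a < c ∧ a ≠ b then ψ' a b else 0 := by
      rw [← Finset.sum_add_distrib]
      refine Finset.sum_congr rfl fun a _ => ?_
      split_ifs <;> simp
    rw [this]
    ring

theorem Pc_smul (q s : K) (x : Fin N → K) (ψ : Fin N → Fin N → K) :
    Pc q x (s • ψ) = s • Pc q x ψ := by
  funext b c
  simp only [Pc, Pi.smul_apply, smul_eq_mul]
  split_ifs
  · simp
  · have : (∑ a, if a < c ∧ a ≠ b then s * ψ a b else 0)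
        = s * ∑ a, if a < c ∧ a ≠ b then ψ a b else 0 := by
      rw [Finset.mul_sum]
      refine Finset.sum_congr rfl fun a _ => ?_
      split_ifs <;> simp
    rw [this]
    ring

theorem Ac_add (q : K) (x φ φ' : Fin N → K) : Ac q x (φ + φ') = Ac q x φ + Ac q x φ' := by
  funext a b
  simp only [Ac, Pi.add_apply]
  split_ifs <;> ring

theorem Ac_smul (q s : K) (x φ : Fin N → K) : Ac q x (s • φ) = s • Ac q x φ := by
  funext a b
  simp only [Ac, Pi.smul_apply, smul_eq_mul]
  split_ifs <;> ring

theorem Bc_add (ψ ψ' : Fin N → Fin N → K) : Bc (ψ + ψ') = Bc ψ + Bc ψ' := by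
  funext b
  simp only [Bc, Pi.add_apply]
  rw [← Finset.sum_add_distrib]
  refine Finset.sum_congr rfl fun a _ => ?_
  split_ifs <;> simp

theorem Bc_smul (s : K) (ψ : Fin N → Fin N → K) : Bc (s • ψ) = s • Bc ψ := by
  funext b
  simp only [Bc, Pi.smul_apply, smul_eq_mul]
  rw [Finset.mul_sum]
  refine Finset.sum_congr rfl fun a _ => ?_
  split_ifs <;> simp

theorem Yc_add (q : K) (x φ φ' : Fin N → K) : Yc q x (φ + φ') = Yc q x φ + Yc q x φ' := by
  funext j
  simp only [Yc, Pi.add_apply]
  have : (∑ d, if d < j then φ d + φ' d else 0)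
      = (∑ d, if d < j then φ d else 0) + ∑ d, if d < j then φ' d else 0 := by
    rw [← Finset.sum_add_distrib]
    refine Finset.sum_congr rfl fun a _ => ?_
    split_ifs <;> simp
  rw [this]
  ring

theorem Yc_smul (q s : K) (x φ : Fin N → K) : Yc q x (s • φ) = s • Yc q x φ := by
  funext j
  simp only [Yc, Pi.smul_apply, smul_eq_mul]
  have : (∑ d, if d < j then s * φ d else 0) = s * ∑ d, if d < j then φ d else 0 := by
    rw [Finset.mul_sum]
    refine Finset.sum_congr rfl fun a _ => ?_
    split_ifs <;> simp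
  rw [this]
  ring

theorem B1c_add (φ φ' : Fin N → K) : B1c (φ + φ') = B1c φ + B1c φ' := by
  simp only [B1c, Pi.add_apply]
  exact Finset.sum_add_distrib

theorem B1c_smul (s : K) (φ : Fin N → K) : B1c (s • φ) = s * B1c φ := by
  simp only [B1c, Pi.smul_apply, smul_eq_mul]
  rw [Finset.mul_sum]

/-- Pointwise form of `Bc_Ac`: collapse to the single sum. -/
theorem Bc_Ac (q : K) (x φ : Fin N → K) :
    Bc (Ac q x φ) = fun b => B1c φ * x b - Yc q x φ b := by
  funext b
  simp only [Bc, Ac, B1c, Yc]
  -- write everything as a sum over `a`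
  have hφ : φ b = ∑ a, if a = b then φ a else 0 := by
    simp
  have key : ∀ a, (if a = b then (0:K) else if a = b then 0 else chi q a b * x b * φ a)
      = φ a * x b - (x b * ((if a = b then φ a else 0) + (1 - q) * (if a < b then φ a else 0))) := by
    intro a
    rcases lt_trichotomy a b with h | h | h
    · have hne := ne_of_lt h
      simp only [chi, if_pos h, if_neg hne]
      ring
    · subst h
      simp only [if_true, lt_irrefl, if_false]
      ring
    · have hne := ne_of_gt h
      have h' : ¬ a < b := not_lt_of_gt h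
      simp only [chi, if_neg h', if_neg hne]
      ring
  rw [Finset.sum_congr rfl (fun a _ => key a), Finset.sum_sub_distrib, ← Finset.sum_mul,
    ← Finset.mul_sum, Finset.sum_add_distrib, ← Finset.mul_sum, ← hφ]

theorem T2c_eq (q : K) (x : Fin N → K) (ψ : Fin N → Fin N → K) :
    T2c q x ψ = fun b c => Pc q x ψ b c + Ac q x (Bc ψ) b c := by
  funext b c
  by_cases hbc : b = c
  · subst hbc
    simp [T2c, Pc, Ac]
  · simp only [T2c, Pc, Ac, Bc, if_neg hbc]
    have hψ : ψ c b = ∑ a, if a = c then ψ a b else 0 := by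
      simp
    have key : ∀ a, (if a = b ∨ a = c then (0:K) else chi q a c * chi q b c * ψ a b)
        = chi q b c * ((if a = b then 0 else ψ a b) - (if a = c then ψ a b else 0)
            - (1 - q) * (if a < c ∧ a ≠ b then ψ a b else 0)) := by
      intro a
      by_cases hab : a = b
      · subst hab
        simp [hbc]
      by_cases hac : a = c
      · subst hac
        simp [hab]
      rcases lt_or_gt_of_ne hac with h | h
      · have h' : a < c ∧ a ≠ b := ⟨h, hab⟩
        simp only [hab, hac, or_self, if_false, chi, if_pos h, if_pos h']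
        ring
      · have h' : ¬ (a < c ∧ a ≠ b) := fun hh => absurd hh.1 (not_lt_of_gt h)
        have h'' : ¬ a < c := not_lt_of_gt h
        simp only [hab, hac, or_self, if_false, chi, if_neg h', if_neg h'']
        ring
    rw [Finset.sum_congr rfl (fun a _ => key a), ← Finset.mul_sum, Finset.sum_sub_distrib,
      Finset.sum_sub_distrib, ← Finset.mul_sum, ← hψ]
    ring

theorem Pc_Ac (q : K) (x φ : Fin N → K) :
    Pc q x (Ac q x φ) = fun a b => - Tc q (Ac q x (Yc q x φ)) a b := by
  funext a b
  rcases lt_trichotomy a b with h | h | h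
  · have hne : a ≠ b := ne_of_lt h
    have h' : ¬ b < a := not_lt_of_gt h
    have key : ∀ d, (if d < b ∧ d ≠ a then Ac q x φ d a else 0)
        = x a * (q * (if d < a then φ d else 0) + (if d < b then φ d else 0)
            - (if d < a then φ d else 0) - (if d = a then φ d else 0)) := by
      intro d
      rcases lt_trichotomy d a with hd | hd | hd
      · have hdb : d < b := lt_trans hd h
        have hda : d ≠ a := ne_of_lt hd
        have : d < b ∧ d ≠ a := ⟨hdb, hda⟩
        simp only [Ac, chi, if_pos this, if_neg hda, if_pos hd, if_pos hdb]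
        ring
      · subst hd
        simp only [ne_eq, not_true_eq_false, and_false, if_false, lt_irrefl, if_true, if_pos h]
        ring
      · have hda : d ≠ a := ne_of_gt hd
        have hd' : ¬ d < a := not_lt_of_gt hd
        by_cases hdb : d < b
        · have : d < b ∧ d ≠ a := ⟨hdb, hda⟩
          simp only [Ac, chi, if_pos this, if_neg hda, if_neg hd', if_pos hdb]
          ring
        · have : ¬ (d < b ∧ d ≠ a) := fun hh => hdb hh.1
          simp only [if_neg this, if_neg hda, if_neg hd', if_neg hdb]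
          ring
    have hs : (∑ d, if d < b ∧ d ≠ a then Ac q x φ d a else 0)
        = x a * (q * (∑ d, if d < a then φ d else 0) + (∑ d, if d < b then φ d else 0)
            - (∑ d, if d < a then φ d else 0) - φ a) := by
      rw [Finset.sum_congr rfl (fun d _ => key d), ← Finset.mul_sum, Finset.sum_sub_distrib,
        Finset.sum_sub_distrib, Finset.sum_add_distrib, ← Finset.mul_sum]
      simp
    have hP : Pc q x (Ac q x φ) a b = - (chi q a b * x b * (Ac q x φ b a
        + (1 - q) * ∑ d, if d < b ∧ d ≠ a then Ac q x φ d a else 0)) := by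
      simp only [Pc, if_neg hne]
    rw [hP, hs]
    simp only [Tc, if_pos h, Ac, if_neg hne, if_neg hne.symm, chi, if_neg h', Yc]
    ring
  · subst h
    simp [Pc, Tc, Ac]
  · have hne : b ≠ a := ne_of_lt h
    have h' : ¬ a < b := not_lt_of_gt h
    have key : ∀ d, (if d < b ∧ d ≠ a then Ac q x φ d a else 0)
        = x a * (q * (if d < b then φ d else 0)) := by
      intro d
      by_cases hdb : d < b
      · have hda : d < a := lt_trans hdb h
        have hda' : d ≠ a := ne_of_lt hda
        have : d < b ∧ d ≠ a := ⟨hdb, hda'⟩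
        simp only [Ac, chi, if_pos this, if_neg hda', if_pos hda, if_pos hdb]
        ring
      · have : ¬ (d < b ∧ d ≠ a) := fun hh => hdb hh.1
        simp only [if_neg this, if_neg hdb]
        ring
    have hs : (∑ d, if d < b ∧ d ≠ a then Ac q x φ d a else 0)
        = x a * (q * (∑ d, if d < b then φ d else 0)) := by
      rw [Finset.sum_congr rfl (fun d _ => key d), ← Finset.mul_sum, ← Finset.mul_sum]
    have hP : Pc q x (Ac q x φ) a b = - (chi q a b * x b * (Ac q x φ b a
        + (1 - q) * ∑ d, if d < b ∧ d ≠ a then Ac q x φ d a else 0)) := by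
      simp only [Pc, if_neg hne.symm]
    rw [hP, hs]
    simp only [Tc, if_neg h', if_pos h, Ac, if_neg hne, chi, Yc]
    ring

/-- Coefficient form of `Tc`. -/
def tau1 (q : K) (a b : Fin N) : K := if a < b then q - 1 else if b < a then 0 else q

def tau2 (q : K) (a b : Fin N) : K := if a < b then q else if b < a then 1 else 0

theorem Tc_expand (q : K) (ψ : Fin N → Fin N → K) (a b : Fin N) :
    Tc q ψ a b = tau1 q a b * ψ a b + tau2 q a b * ψ b a := by
  rcases lt_trichotomy a b with h | h | h
  · have h' : ¬ b < a := not_lt_of_gt h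
    simp only [Tc, tau1, tau2, if_pos h]
  · subst h
    simp only [Tc, tau1, tau2, lt_irrefl, if_false]
    ring
  · have h' : ¬ a < b := not_lt_of_gt h
    simp only [Tc, tau1, tau2, if_pos h, if_neg h']
    ring

/-- The coefficient of `ψ s b` in `Pc q x ψ b c`. -/
def pco (q : K) (x : Fin N → K) (b c s : Fin N) : K :=
  if b = c then 0 else
    - (chi q b c * x c * ((if s = c then 1 else 0) + (1 - q) * (if s < c then (if s = b then 0 else 1) else 0)))

theorem Pc_expand (q : K) (x : Fin N → K) (ψ : Fin N → Fin N → K) (b c : Fin N) :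
    Pc q x ψ b c = ∑ s, pco q x b c s * ψ s b := by
  by_cases hbc : b = c
  · simp [Pc, pco, hbc]
  · simp only [Pc, pco, if_neg hbc]
    have key : ∀ s, -(chi q b c * x c * ((if s = c then 1 else 0)
          + (1 - q) * (if s < c then (if s = b then 0 else 1) else 0))) * ψ s b
        = -(chi q b c * x c * ((if s = c then ψ s b else 0)
          + (1 - q) * (if s < c ∧ s ≠ b then ψ s b else 0))) := by
      intro s
      by_cases h1 : s = c <;> by_cases h2 : s < c <;> by_cases h3 : s = b <;>
        simp [h1, h2, h3] <;> ring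
    have h1 : (∑ s, if s = c then ψ s b else 0) = ψ c b := by simp
    rw [Finset.sum_congr rfl (fun s _ => key s), Finset.sum_neg_distrib, ← Finset.mul_sum,
      Finset.sum_add_distrib, ← Finset.mul_sum, h1]

theorem Pc2_expand (q : K) (x : Fin N → K) (ψ : Fin N → Fin N → K) (b c : Fin N) :
    Pc q x (Pc q x ψ) b c = ∑ s, ∑ r, pco q x b c s * pco q x s b r * ψ r s := by
  rw [Pc_expand]
  refine Finset.sum_congr rfl fun s _ => ?_
  rw [Pc_expand, Finset.mul_sum]
  refine Finset.sum_congr rfl fun r _ => ?_
  ring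

theorem tri3 (a b : Fin N) : (a < b ∧ a ≠ b ∧ b ≠ a ∧ ¬ b < a) ∨ a = b ∨
    (b < a ∧ a ≠ b ∧ b ≠ a ∧ ¬ a < b) := by
  rcases lt_trichotomy a b with h | h | h
  · exact Or.inl ⟨h, ne_of_lt h, (ne_of_lt h).symm, not_lt_of_gt h⟩
  · exact Or.inr (Or.inl h)
  · exact Or.inr (Or.inr ⟨h, (ne_of_lt h).symm, ne_of_lt h, not_lt_of_gt h⟩)

set_option maxHeartbeats 4000000 in
/-- The pointwise identity behind `Pc_Pc_Tc`. -/
theorem coef_id (q : K) (x : Fin N → K) (b c s r : Fin N) :
    pco q x b c s * pco q x s b r * tau1 q r s + pco q x b c r * pco q x r b s * tau2 q s r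
      = tau1 q b c * (pco q x b c s * pco q x s b r) + tau2 q b c * (pco q x c b s * pco q x s c r) := by
  rcases tri3 b c with ⟨_, _, _, _⟩ | _ | ⟨_, _, _, _⟩ <;>
  rcases tri3 s c with ⟨_, _, _, _⟩ | _ | ⟨_, _, _, _⟩ <;>
  rcases tri3 s b with ⟨_, _, _, _⟩ | _ | ⟨_, _, _, _⟩ <;>
  try (exfalso; order)
  all_goals
    rcases tri3 r c with ⟨_, _, _, _⟩ | _ | ⟨_, _, _, _⟩ <;>
    rcases tri3 r b with ⟨_, _, _, _⟩ | _ | ⟨_, _, _, _⟩ <;>
    try (exfalso; order)
  all_goals
    rcases tri3 r s with ⟨_, _, _, _⟩ | _ | ⟨_, _, _, _⟩ <;>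
    first
    | (exfalso; order)
    | (simp [*, pco, tau1, tau2, chi]; try ring)

theorem Pc_Pc_Tc (q : K) (x : Fin N → K) (ψ : Fin N → Fin N → K) :
    Pc q x (Pc q x (Tc q ψ)) = Tc q (Pc q x (Pc q x ψ)) := by
  funext b c
  rw [Pc2_expand, Tc_expand, Pc2_expand, Pc2_expand, Finset.mul_sum, Finset.mul_sum,
    ← Finset.sum_add_distrib]
  have h1 : ∀ s r, pco q x b c s * pco q x s b r * Tc q ψ r s
      = pco q x b c s * pco q x s b r * tau1 q r s * ψ r s
        + pco q x b c s * pco q x s b r * tau2 q r s * ψ s r := by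
    intro s r
    rw [Tc_expand]
    ring
  simp only [h1]
  rw [Finset.sum_congr rfl (fun s _ => Finset.sum_add_distrib), Finset.sum_add_distrib]
  have h2 : (∑ s, ∑ r, pco q x b c s * pco q x s b r * tau2 q r s * ψ s r)
      = ∑ s, ∑ r, pco q x b c r * pco q x r b s * tau2 q s r * ψ r s := by
    rw [Finset.sum_comm]
  rw [h2, ← Finset.sum_add_distrib]
  refine Finset.sum_congr rfl fun s _ => ?_
  rw [← Finset.sum_add_distrib, Finset.mul_sum, Finset.mul_sum, ← Finset.sum_add_distrib]
  refine Finset.sum_congr rfl fun r _ => ?_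
  have := coef_id q x b c s r
  linear_combination (ψ r s) * this

/-- The pointwise identity behind `Bc_Pc`. -/
theorem coef_id2 (q : K) (a b j : Fin N) :
    (if b = j then (0:K) else chi q b j * ((if a = j then 1 else 0)
        + (1 - q) * (if a < j then (if a = b then 0 else 1) else 0)))
      = ((if b = j then 1 else 0) + (1 - q) * (if b < j then 1 else 0)) *
          (if a = b then 0 else tau1 q a b)
        + ((if a = j then 1 else 0) + (1 - q) * (if a < j then 1 else 0)) *
          (if b = a then 0 else tau2 q b a) := by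
  rcases tri3 a b with ⟨_, _, _, _⟩ | _ | ⟨_, _, _, _⟩ <;>
  rcases tri3 a j with ⟨_, _, _, _⟩ | _ | ⟨_, _, _, _⟩ <;>
  rcases tri3 b j with ⟨_, _, _, _⟩ | _ | ⟨_, _, _, _⟩ <;>
  first
  | (exfalso; order)
  | (simp [*, tau1, tau2, chi]; try ring)

theorem Bc_Pc (q : K) (x : Fin N → K) (ψ : Fin N → Fin N → K) :
    Bc (Pc q x ψ) = fun j => - Yc q x (Bc (Tc q ψ)) j := by
  funext j
  have hL : Bc (Pc q x ψ) j = ∑ b, ∑ a, pco q x b j a * ψ a b := by
    simp only [Bc]
    refine Finset.sum_congr rfl fun b _ => ?_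
    by_cases h : b = j
    · subst h
      simp [pco]
    · rw [if_neg h, Pc_expand]
  have hω : ∀ F : Fin N → K, F j + (1 - q) * (∑ d, if d < j then F d else 0)
      = ∑ d, ((if d = j then 1 else 0) + (1 - q) * (if d < j then 1 else 0)) * F d := by
    intro F
    rw [Finset.mul_sum]
    have : F j = ∑ d, if d = j then F d else 0 := by simp
    rw [this, ← Finset.sum_add_distrib]
    refine Finset.sum_congr rfl fun d _ => ?_
    split_ifs <;> ring
  have hB : ∀ d, ((if d = j then 1 else 0) + (1 - q) * (if d < j then 1 else 0)) * Bc (Tc q ψ) d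
      = ∑ a, (((if d = j then 1 else 0) + (1 - q) * (if d < j then 1 else 0)) *
            (if a = d then 0 else tau1 q a d) * ψ a d
          + ((if d = j then 1 else 0) + (1 - q) * (if d < j then 1 else 0)) *
            (if a = d then 0 else tau2 q a d) * ψ d a) := by
    intro d
    simp only [Bc]
    rw [Finset.mul_sum]
    refine Finset.sum_congr rfl fun a _ => ?_
    by_cases h : a = d
    · simp [h]
    · simp only [if_neg h]
      rw [Tc_expand]
      ring
  have hswap : (∑ d, ∑ a, ((if d = j then (1:K) else 0) + (1 - q) * (if d < j then 1 else 0)) *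
            (if a = d then 0 else tau2 q a d) * ψ d a)
      = ∑ b, ∑ a, ((if a = j then (1:K) else 0) + (1 - q) * (if a < j then 1 else 0)) *
            (if b = a then 0 else tau2 q b a) * ψ a b := by
    rw [Finset.sum_comm]
  have hR : (∑ d, ((if d = j then 1 else 0) + (1 - q) * (if d < j then 1 else 0)) * Bc (Tc q ψ) d)
      = ∑ b, ∑ a, (if b = j then (0:K) else chi q b j * ((if a = j then 1 else 0)
        + (1 - q) * (if a < j then (if a = b then 0 else 1) else 0))) * ψ a b := by
    rw [Finset.sum_congr rfl (fun d _ => hB d),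
      Finset.sum_congr rfl (fun d _ => Finset.sum_add_distrib), Finset.sum_add_distrib, hswap,
      ← Finset.sum_add_distrib]
    refine Finset.sum_congr rfl fun b _ => ?_
    rw [← Finset.sum_add_distrib]
    refine Finset.sum_congr rfl fun a _ => ?_
    rw [coef_id2 q a b j]
    ring
  show Bc (Pc q x ψ) j = - Yc q x (Bc (Tc q ψ)) j
  rw [hL]
  simp only [Yc]
  rw [hω, hR, Finset.mul_sum, ← Finset.sum_neg_distrib]
  refine Finset.sum_congr rfl fun b _ => ?_
  rw [Finset.mul_sum, ← Finset.sum_neg_distrib]
  refine Finset.sum_congr rfl fun a _ => ?_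
  by_cases h : b = j
  · subst h
    simp [pco]
  · simp only [pco, if_neg h]
    ring

end P066
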