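import Vale.Agent.Lib.P066.Cone
import Vale.Agent.Lib.P066.ColorRel
import Vale.Agent.Lib.P066.ColorEsym
import Vale.Agent.Lib.P066.Bridge

/-!
# P066: the concrete family of window algebras and the main induction
-/

namespace P066

open Finset

/-- Coefficient ring in `N` colours. -/
abbrev RN (N : ℕ) : Type := MvPolynomial (Fin N) (Polynomial ℤ)

/-- Its fraction field. -/
abbrev FN (N : ℕ) : Type := FractionRing (RN N)

/-- The parameter `q` in `FN N`. -/
noncomputable def qF (N : ℕ) : FN N := algebraMap (RN N) (FN N) (MvPolynomial.C Polynomial.X)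

/-- The variables `x_j` in `FN N`. -/
noncomputable def xF (N : ℕ) (j : Fin N) : FN N := algebraMap (RN N) (FN N) (MvPolynomial.X j)

theorem qF_ne_zero (N : ℕ) : qF N ≠ 0 := by
  unfold qF
  rw [Ne, IsFractionRing.to_map_eq_zero_iff (K := FN N), MvPolynomial.C_eq_zero]
  exact Polynomial.X_ne_zero

theorem qF_ne_one (N : ℕ) : qF N ≠ 1 := by
  unfold qF
  intro h
  have h1 : algebraMap (RN N) (FN N) (MvPolynomial.C Polynomial.X) = algebraMap (RN N) (FN N) 1 := by
    rw [h, map_one]
  have h2 := IsFractionRing.injective (RN N) (FN N) h1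
  have h3 : (MvPolynomial.C (Polynomial.X : Polynomial ℤ) : RN N) = MvPolynomial.C 1 := by
    rw [h2, MvPolynomial.C_1]
  have h4 : (Polynomial.X : Polynomial ℤ) = 1 := MvPolynomial.C_injective _ _ h3
  have h5 := congrArg (fun p => Polynomial.coeff p 1) h4
  simp [Polynomial.coeff_one] at h5

/-- The coefficient ring of the family. -/
abbrev Fam : Type := (N : ℕ) → FN N
/-- One-colour states of the family. -/
abbrev M1F : Type := (N : ℕ) → (Fin N → FN N)
/-- Two-colour states of the family. -/
abbrev M2F : Type := (N : ℕ) → (Fin N → Fin N → FN N)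

/-- `T` on the family. -/
noncomputable def TF : M2F →ₗ[Fam] M2F where
  toFun ψ N := Tc (qF N) (ψ N)
  map_add' ψ ψ' := by funext N; exact Tc_add _ _ _
  map_smul' s ψ := by funext N; exact Tc_smul _ _ _

/-- `pi` on the family. -/
noncomputable def PF : M2F →ₗ[Fam] M2F where
  toFun ψ N := Pc (qF N) (xF N) (ψ N)
  map_add' ψ ψ' := by funext N; exact Pc_add _ _ _ _
  map_smul' s ψ := by funext N; exact Pc_smul _ _ _ _

/-- `A₁` on the family. -/
noncomputable def AF : M1F →ₗ[Fam] M2F where
  toFun φ N := Ac (qF N) (xF N) (φ N)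
  map_add' ψ ψ' := by funext N; exact Ac_add _ _ _ _
  map_smul' s ψ := by funext N; exact Ac_smul _ _ _ _

/-- `B₂` on the family. -/
noncomputable def BF : M2F →ₗ[Fam] M1F where
  toFun ψ N := Bc (ψ N)
  map_add' ψ ψ' := by funext N; exact Bc_add _ _
  map_smul' s ψ := by funext N; exact Bc_smul _ _

/-- `y` on the family. -/
noncomputable def YF : M1F →ₗ[Fam] M1F where
  toFun φ N := Yc (qF N) (xF N) (φ N)
  map_add' ψ ψ' := by funext N; exact Yc_add _ _ _ _
  map_smul' s ψ := by funext N; exact Yc_smul _ _ _ _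

/-- `B₁` on the family. -/
noncomputable def B1F : M1F →ₗ[Fam] Fam where
  toFun φ N := B1c (φ N)
  map_add' ψ ψ' := by funext N; exact B1c_add _ _
  map_smul' s ψ := by funext N; exact B1c_smul _ _

/-- The elementary symmetric functions of the family. -/
noncomputable def eF (k : ℕ) : Fam := fun N => esymK (xF N) k

theorem qnum_fam (a : ℕ) (N : ℕ) : qnum (fun N => qF N) a N = qnum (qF N) a := by
  simp [qnum, Finset.sum_apply]

theorem uSeq_fam (a : ℕ) (N : ℕ) :
    uSeq eF (xF : M1F) YF a N = uc (qF N) (xF N) a := by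
  induction a with
  | zero => rfl
  | succ a ih =>
    funext j
    simp only [uSeq, uc, Pi.sub_apply]
    have : YF (uSeq eF (xF : M1F) YF a) N = Yc (qF N) (xF N) (uc (qF N) (xF N) a) := by
      show Yc (qF N) (xF N) (uSeq eF (xF : M1F) YF a N) = _
      rw [ih]
    rw [this]
    rfl

/-- The family of window algebras. -/
noncomputable def algF : Alg Fam M1F M2F where
  q := fun N => qF N
  qi := fun N => (qF N)⁻¹
  hq := by funext N; exact mul_inv_cancel₀ (qF_ne_zero N)
  e := eF
  he0 := by funext N; exact esymK_zero _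
  u1 := xF
  T := TF
  pi := PF
  A := AF
  B := BF
  Y := YF
  B1 := B1F
  hT ψ := by
    funext N a b
    have := congrFun (congrFun (Tc_Tc (qF N) (ψ N)) a) b
    exact this
  hpi2 ψ := by funext N; exact Pc_Pc_Tc _ _ _
  hpiA φ := by
    funext N a b
    have := congrFun (congrFun (Pc_Ac (qF N) (xF N) (φ N)) a) b
    exact this
  hBpi ψ := by
    funext N j
    have := congrFun (Bc_Pc (qF N) (xF N) (ψ N)) j
    exact this
  hvac := by
    funext N a b
    have := congrFun (congrFun (Tc_vac (qF N) (xF N)) a) b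
    exact this
  hBA φ := by
    funext N b
    have := congrFun (Bc_Ac (qF N) (xF N) (φ N)) b
    exact this
  hB1 a := by
    funext N
    show B1c (uSeq eF (xF : M1F) YF a N) = _
    rw [uSeq_fam, B1c_uc (qF N) (qF_ne_one N)]
    simp [qnum, eF, Finset.sum_apply]

end P066
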