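import Vale.Agent.Lib.P066.Abstract2

/-!
# P066: the positive cones and their closure under the transitions
-/

namespace P066

open Finset

namespace Alg

variable {K M1 M2 : Type*} [CommRing K] [AddCommGroup M1] [Module K M1]
  [AddCommGroup M2] [Module K M2] (D : Alg K M1 M2)

/-- Monomials `q^m e_λ` with `λ ⊢ t`. -/
def gen (t : ℕ) : Set K :=
  {z | ∃ (m : ℕ) (s : Multiset ℕ), (∀ i ∈ s, 1 ≤ i) ∧ s.sum = t ∧ z = D.q ^ m * (s.map D.e).prod}

theorem gen_one : (1 : K) ∈ D.gen 0 := ⟨0, 0, by simp, by simp, by simp⟩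

theorem gen_mul {s s' : ℕ} {z z' : K} (hz : z ∈ D.gen s) (hz' : z' ∈ D.gen s') :
    z * z' ∈ D.gen (s + s') := by
  obtain ⟨m, a, ha, rfl, rfl⟩ := hz
  obtain ⟨m', a', ha', rfl, rfl⟩ := hz'
  refine ⟨m + m', a + a', ?_, by simp, ?_⟩
  · intro i hi
    rcases Multiset.mem_add.mp hi with h | h
    · exact ha i h
    · exact ha' i h
  · simp only [Multiset.map_add, Multiset.prod_add, pow_add]
    ring

theorem gen_q_pow (m : ℕ) : D.q ^ m ∈ D.gen 0 := ⟨m, 0, by simp, by simp, by simp⟩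

theorem gen_e (a : ℕ) : D.e a ∈ D.gen a := by
  rcases Nat.eq_zero_or_pos a with rfl | ha
  · rw [D.he0]; exact D.gen_one
  · exact ⟨0, {a}, by intro i hi; rw [Multiset.mem_singleton] at hi; omega, by simp, by simp⟩

/-- Monomial combinations in `K`. -/
def C0 (t : ℕ) : AddSubmonoid K := AddSubmonoid.closure (D.gen t)

/-- One-colour cone. -/
def C1 (t : ℕ) : AddSubmonoid M1 :=
  AddSubmonoid.closure {v | ∃ (a : ℕ) (z : K) (s : ℕ), 1 ≤ a ∧ s + a = t ∧ z ∈ D.gen s ∧ v = z • D.u a}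

/-- Two-colour cone. -/
def C2 (t : ℕ) : AddSubmonoid M2 :=
  AddSubmonoid.closure
    ({v | ∃ (c l : ℕ) (z : K) (s : ℕ), 1 ≤ l ∧ 2 * l + 2 ≤ c ∧ s + c = t ∧ z ∈ D.gen s ∧ v = z • D.Yev c l}
      ∪ {v | ∃ (c l : ℕ) (z : K) (s : ℕ), 2 * l + 3 ≤ c ∧ s + c = t ∧ z ∈ D.gen s ∧ v = z • D.Yod c l}
      ∪ {v | ∃ (m : ℕ) (z : K) (s : ℕ), s + (m + 2) = t ∧ z ∈ D.gen s ∧ v = z • D.P (m + 2)})

theorem C0_mem_of_gen {t : ℕ} {z : K} (hz : z ∈ D.gen t) : z ∈ D.C0 t :=
  AddSubmonoid.subset_closure hz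

theorem C1_mem_gen {s a t : ℕ} {z : K} (hz : z ∈ D.gen s) (ha : 1 ≤ a) (h : s + a = t) :
    z • D.u a ∈ D.C1 t :=
  AddSubmonoid.subset_closure ⟨a, z, s, ha, h, hz, rfl⟩

theorem C2_mem_ev {s c l t : ℕ} {z : K} (hz : z ∈ D.gen s) (hl : 1 ≤ l) (hc : 2 * l + 2 ≤ c)
    (h : s + c = t) : z • D.Yev c l ∈ D.C2 t :=
  AddSubmonoid.subset_closure (Or.inl (Or.inl ⟨c, l, z, s, hl, hc, h, hz, rfl⟩))

theorem C2_mem_od {s c l t : ℕ} {z : K} (hz : z ∈ D.gen s) (hc : 2 * l + 3 ≤ c)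
    (h : s + c = t) : z • D.Yod c l ∈ D.C2 t :=
  AddSubmonoid.subset_closure (Or.inl (Or.inr ⟨c, l, z, s, hc, h, hz, rfl⟩))

theorem C2_mem_P {s m t : ℕ} {z : K} (hz : z ∈ D.gen s) (h : s + (m + 2) = t) :
    z • D.P (m + 2) ∈ D.C2 t :=
  AddSubmonoid.subset_closure (Or.inr ⟨m, z, s, h, hz, rfl⟩)

/-- Scalar multiplication by monomials on the cones. -/
theorem C0_smul {s t t' : ℕ} {z v : K} (hz : z ∈ D.gen s) (hv : v ∈ D.C0 t) (h : s + t = t') :
    z * v ∈ D.C0 t' := by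
  subst h
  induction hv using AddSubmonoid.closure_induction with
  | mem x hx => exact AddSubmonoid.subset_closure (D.gen_mul hz hx)
  | zero => simp
  | add x y _ _ hx hy => rw [mul_add]; exact add_mem hx hy

theorem C1_smul {s t t' : ℕ} {z : K} {v : M1} (hz : z ∈ D.gen s) (hv : v ∈ D.C1 t) (h : s + t = t') :
    z • v ∈ D.C1 t' := by
  subst h
  induction hv using AddSubmonoid.closure_induction with
  | mem x hx =>
    obtain ⟨a, z', s', ha, rfl, hz', rfl⟩ := hx
    rw [smul_smul]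
    exact D.C1_mem_gen (D.gen_mul hz hz') ha (by omega)
  | zero => simp
  | add x y _ _ hx hy => rw [smul_add]; exact add_mem hx hy

theorem C2_smul {s t t' : ℕ} {z : K} {v : M2} (hz : z ∈ D.gen s) (hv : v ∈ D.C2 t) (h : s + t = t') :
    z • v ∈ D.C2 t' := by
  subst h
  induction hv using AddSubmonoid.closure_induction with
  | mem x hx =>
    rcases hx with (hx | hx) | hx
    · obtain ⟨c, l, z', s', hl, hc, rfl, hz', rfl⟩ := hx
      rw [smul_smul]
      exact D.C2_mem_ev (D.gen_mul hz hz') hl hc (by omega)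
    · obtain ⟨c, l, z', s', hc, rfl, hz', rfl⟩ := hx
      rw [smul_smul]
      exact D.C2_mem_od (D.gen_mul hz hz') hc (by omega)
    · obtain ⟨m, z', s', rfl, hz', rfl⟩ := hx
      rw [smul_smul]
      exact D.C2_mem_P (D.gen_mul hz hz') (by omega)
  | zero => simp
  | add x y _ _ hx hy => rw [smul_add]; exact add_mem hx hy

theorem C0_qnum {t : ℕ} {v : K} (n : ℕ) (hv : v ∈ D.C0 t) : qnum D.q n * v ∈ D.C0 t := by
  unfold qnum
  rw [Finset.sum_mul]
  exact sum_mem (fun i _ => D.C0_smul (D.gen_q_pow i) hv (by omega))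

theorem C1_qnum {t : ℕ} {v : M1} (n : ℕ) (hv : v ∈ D.C1 t) : qnum D.q n • v ∈ D.C1 t := by
  unfold qnum
  rw [Finset.sum_smul]
  exact sum_mem (fun i _ => D.C1_smul (D.gen_q_pow i) hv (by omega))

theorem C2_qnum {t : ℕ} {v : M2} (n : ℕ) (hv : v ∈ D.C2 t) : qnum D.q n • v ∈ D.C2 t := by
  unfold qnum
  rw [Finset.sum_smul]
  exact sum_mem (fun i _ => D.C2_smul (D.gen_q_pow i) hv (by omega))

/-- The basic positive term in `C1`. -/
theorem C1_term (m n i a c : ℕ) (ha : 1 ≤ a) (h : i + a = c) :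
    (D.q ^ m * qnum D.q n * D.e i) • D.u a ∈ D.C1 c := by
  have h1 : D.e i • D.u a ∈ D.C1 c := D.C1_mem_gen (D.gen_e i) ha h
  have h2 := D.C1_smul (D.gen_q_pow m) (D.C1_qnum n h1) (t' := c) (by omega)
  have : (D.q ^ m * qnum D.q n * D.e i) • D.u a = D.q ^ m • qnum D.q n • D.e i • D.u a := by
    simp only [smul_smul, mul_assoc]
  rw [this]
  exact h2

theorem gE_mem (c l : ℕ) (hc : 2 * l + 2 ≤ c) : D.gE c l ∈ D.C1 c := by
  unfold gE
  refine add_mem (sum_mem fun i hi => ?_) (sum_mem fun i hi => ?_)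
  · have := Finset.mem_range.mp hi
    exact D.C1_term _ _ _ _ _ (by omega) (by omega)
  · have := Finset.mem_range.mp hi
    exact D.C1_term _ _ _ _ _ (by omega) (by omega)

theorem gO_mem (c l : ℕ) (hc : 2 * l + 3 ≤ c) : D.gO c l ∈ D.C1 c := by
  unfold gO
  refine add_mem (sum_mem fun i hi => ?_) (sum_mem fun i hi => ?_)
  · have := Finset.mem_range.mp hi
    exact D.C1_term _ _ _ _ _ (by omega) (by omega)
  · have := Finset.mem_range.mp hi
    exact D.C1_term _ _ _ _ _ (by omega) (by omega)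

theorem bfE_mem (c l : ℕ) (hc : 2 * l + 2 ≤ c) : D.bfE c l ∈ D.C1 c := by
  unfold bfE
  refine add_mem (sum_mem fun i hi => ?_) (sum_mem fun i hi => ?_)
  · have := Finset.mem_range.mp hi
    exact D.C1_term _ _ _ _ _ (by omega) (by omega)
  · have := Finset.mem_range.mp hi
    exact D.C1_term _ _ _ _ _ (by omega) (by omega)

theorem bfO_mem (c l : ℕ) (hc : 2 * l + 3 ≤ c) : D.bfO c l ∈ D.C1 c := by
  unfold bfO
  refine add_mem (sum_mem fun i hi => ?_) (sum_mem fun i hi => ?_)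
  · have := Finset.mem_range.mp hi
    exact D.C1_term _ _ _ _ _ (by omega) (by omega)
  · have := Finset.mem_range.mp hi
    exact D.C1_term _ _ _ _ _ (by omega) (by omega)

/-! ### Closure under the transitions -/

/-- `z ↦ z • u₁`: a new isolated vertex. -/
theorem C0_to_C1 {t : ℕ} {z : K} (hz : z ∈ D.C0 t) : z • D.u1 ∈ D.C1 (t + 1) := by
  induction hz using AddSubmonoid.closure_induction with
  | mem x hx =>
    have := D.C1_mem_gen hx (a := 1) le_rfl rfl
    rwa [u_one] at this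
  | zero => simp
  | add x y _ _ hx hy => rw [add_smul]; exact add_mem hx hy

/-- `B₁` maps `C1` to `C0`. -/
theorem C1_B1 {t : ℕ} {v : M1} (hv : v ∈ D.C1 t) : D.B1 v ∈ D.C0 t := by
  induction hv using AddSubmonoid.closure_induction with
  | mem x hx =>
    obtain ⟨a, z, s, ha, rfl, hz, rfl⟩ := hx
    rw [map_smul, D.hB1, smul_eq_mul]
    have h1 : D.e a ∈ D.C0 a := D.C0_mem_of_gen (D.gen_e a)
    have h2 := D.C0_smul hz (D.C0_qnum a h1) (t' := s + a) rfl
    exact h2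
  | zero => simp
  | add x y _ _ hx hy => rw [map_add]; exact add_mem hx hy

/-- `B₂ A₁` maps `C1 t` to `C1 (t+1)`. -/
theorem C1_BA {t : ℕ} {v : M1} (hv : v ∈ D.C1 t) : D.B (D.A v) ∈ D.C1 (t + 1) := by
  induction hv using AddSubmonoid.closure_induction with
  | mem x hx =>
    obtain ⟨a, z, s, ha, rfl, hz, rfl⟩ := hx
    obtain ⟨a, rfl⟩ : ∃ a', a = a' + 1 := ⟨a - 1, by omega⟩
    rw [map_smul, map_smul, BA_u', smul_add]
    refine add_mem (D.C1_mem_gen hz (a := a + 2) (by omega) (by omega)) ?_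
    refine D.C1_smul hz ?_ (t' := s + (a + 1) + 1) (t := a + 2) (by omega)
    have := D.C1_term 1 a (a + 1) 1 (a + 2) le_rfl (by omega)
    rw [u_one, pow_one] at this
    exact this
  | zero => simp
  | add x y _ _ hx hy => simp only [map_add]; exact add_mem hx hy

/-- `A₁` maps `C1 t` to `C2 (t+1)`. -/
theorem C1_A {t : ℕ} {v : M1} (hv : v ∈ D.C1 t) : D.A v ∈ D.C2 (t + 1) := by
  induction hv using AddSubmonoid.closure_induction with
  | mem x hx =>
    obtain ⟨a, z, s, ha, rfl, hz, rfl⟩ := hx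
    rw [map_smul]
    rcases Nat.lt_or_ge a 2 with h | h
    · obtain rfl : a = 1 := by omega
      rw [A_u_one]
      exact D.C2_mem_P (m := 0) hz rfl
    · obtain ⟨m, rfl⟩ : ∃ m, a = m + 2 := ⟨a - 2, by omega⟩
      rw [A_u_two]
      exact D.C2_mem_od (l := 0) hz (by omega) (by omega)
  | zero => simp
  | add x y _ _ hx hy => rw [map_add]; exact add_mem hx hy

/-- `T₂ = pi + A B` maps `C2 t` to `C2 (t+1)`. -/
theorem C2_T2 {t : ℕ} {v : M2} (hv : v ∈ D.C2 t) : D.pi v + D.A (D.B v) ∈ D.C2 (t + 1) := by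
  induction hv using AddSubmonoid.closure_induction with
  | mem x hx =>
    rcases hx with (hx | hx) | hx
    · obtain ⟨c, l, z, s, hl, hc, rfl, hz, rfl⟩ := hx
      simp only [map_smul]
      rw [← smul_add, T2_Yev D c l hl hc, smul_add]
      refine add_mem (D.C2_mem_od hz (by omega) (by omega)) ?_
      exact D.C2_smul hz (D.C1_A (D.gE_mem c l hc)) (by omega)
    · obtain ⟨c, l, z, s, hc, rfl, hz, rfl⟩ := hx
      simp only [map_smul]
      rw [← smul_add, T2_Yod D c l hc, smul_add]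
      refine add_mem (D.C2_mem_ev hz (by omega) (by omega) (by omega)) ?_
      exact D.C2_smul hz (D.C1_A (D.gO_mem c l hc)) (by omega)
    · obtain ⟨m, z, s, rfl, hz, rfl⟩ := hx
      simp only [map_smul]
      rw [← smul_add, T2_P, smul_add]
      refine add_mem (D.C2_mem_P (m := m + 1) hz (by omega)) ?_
      have h1 : D.A (D.u (m + 2)) ∈ D.C2 (m + 2 + 1) :=
        D.C1_A (D.C1_term 0 1 0 (m + 2) (m + 2) (by omega) (by omega) |> fun h => by
          simpa [qnum, D.he0] using h)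
      have h2 : (D.q * qnum D.q m) • D.A (D.u (m + 2)) ∈ D.C2 (m + 2 + 1) := by
        have h3 := D.C2_smul (D.gen_q_pow 1) (D.C2_qnum m h1) (t' := m + 2 + 1) (by omega)
        simpa [smul_smul] using h3
      exact D.C2_smul hz h2 (by omega)
  | zero => simp
  | add x y _ _ hx hy =>
    simp only [map_add]
    have := add_mem hx hy
    convert this using 1
    abel

/-- `B₂` maps `C2 t` to `C1 t`. -/
theorem C2_B {t : ℕ} {v : M2} (hv : v ∈ D.C2 t) : D.B v ∈ D.C1 t := by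
  induction hv using AddSubmonoid.closure_induction with
  | mem x hx =>
    rcases hx with (hx | hx) | hx
    · obtain ⟨c, l, z, s, hl, hc, rfl, hz, rfl⟩ := hx
      rw [map_smul, (D.B_Yev_Yod c l).1 hc]
      exact D.C1_smul hz (D.bfE_mem c l hc) rfl
    · obtain ⟨c, l, z, s, hc, rfl, hz, rfl⟩ := hx
      rw [map_smul, (D.B_Yev_Yod c l).2 hc]
      exact D.C1_smul hz (D.bfO_mem c l hc) rfl
    · obtain ⟨m, z, s, rfl, hz, rfl⟩ := hx
      rw [map_smul, D.B_P (m + 1)]
      refine D.C1_smul hz (D.C1_qnum _ ?_) rfl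
      have := D.C1_term 0 1 0 (m + 1 + 1) (m + 2) (by omega) (by omega)
      simpa [qnum, D.he0] using this
  | zero => simp
  | add x y _ _ hx hy => rw [map_add]; exact add_mem hx hy

/-- Elements of `C0 n` are `ℕ[q]`-combinations of the `e_λ`, `λ ⊢ n`. -/
theorem C0_exists {n : ℕ} {v : K} (hv : v ∈ D.C0 n) :
    ∃ c : Nat.Partition n → Polynomial ℕ,
      v = ∑ p : Nat.Partition n,
        Polynomial.eval₂ (Nat.castRingHom K) D.q (c p) * (p.parts.map D.e).prod := by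
  induction hv using AddSubmonoid.closure_induction with
  | mem x hx =>
    obtain ⟨m, s, hs, hsum, rfl⟩ := hx
    classical
    let p0 : Nat.Partition n :=
      ⟨s, fun {i} hi => by have := hs i hi; omega, hsum⟩
    refine ⟨fun p => if p = p0 then Polynomial.X ^ m else 0, ?_⟩
    rw [Finset.sum_eq_single p0]
    · simp [Polynomial.eval₂_pow, p0]
    · intro b _ hb
      simp [hb]
    · simp
  | zero => exact ⟨fun _ => 0, by simp⟩
  | add x y _ _ hx hy =>
    obtain ⟨c, rfl⟩ := hx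
    obtain ⟨c', rfl⟩ := hy
    refine ⟨fun p => c p + c' p, ?_⟩
    rw [← Finset.sum_add_distrib]
    refine Finset.sum_congr rfl (fun p _ => ?_)
    rw [Polynomial.eval₂_add]
    ring

end Alg
end P066
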