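import Mathlib

/-!
# P066: colour-level window operators (K₄-free natural unit interval graphs)

Colours are `Fin N`, window states are functions of the colours of the last one or two
vertices.  All definitions make sense over any commutative ring `K`, with elements `q` and `x`.
The diagonal of a function `Fin N → Fin N → K` plays no role: every output of `Ac`, `Pc`, `T2c`
vanishes on the diagonal.
-/

namespace P066

open Finset

variable {K : Type*} [CommRing K] {N : ℕ}

/-- `q` if `a < b`, else `1`. -/
def chi (q : K) (a b : Fin N) : K := if a < b then q else 1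

/-- The Hecke swap on window functions. -/
def Tc (q : K) (ψ : Fin N → Fin N → K) : Fin N → Fin N → K := fun a b =>
  if a < b then (q - 1) * ψ a b + q * ψ b a else if b < a then ψ b a else q * ψ a a

/-- `A₁`: add a new vertex adjacent to the single window vertex. -/
def Ac (q : K) (x : Fin N → K) (φ : Fin N → K) : Fin N → Fin N → K := fun a b =>
  if a = b then 0 else chi q a b * x b * φ a

/-- `B₂`: forget the older window vertex. -/
def Bc (ψ : Fin N → Fin N → K) : Fin N → K := fun b => ∑ a, if a = b then 0 else ψ a b

/-- `y = u₁ B₁ - B₂ A₁` on one-colour functions. -/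
def Yc (q : K) (x : Fin N → K) (φ : Fin N → K) : Fin N → K := fun j =>
  x j * (φ j + (1 - q) * ∑ d, if d < j then φ d else 0)

/-- The rotation `π = T₂ - A₁ B₂` on two-colour functions. -/
def Pc (q : K) (x : Fin N → K) (ψ : Fin N → Fin N → K) : Fin N → Fin N → K := fun b c =>
  if b = c then 0 else
    - (chi q b c * x c * (ψ c b + (1 - q) * ∑ a, if a < c ∧ a ≠ b then ψ a b else 0))

/-- `T₂`: add a vertex adjacent to both window vertices and forget the oldest one. -/
def T2c (q : K) (x : Fin N → K) (ψ : Fin N → Fin N → K) : Fin N → Fin N → K := fun b c =>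
  if b = c then 0 else
    x c * ∑ a, if a = b ∨ a = c then 0 else chi q a c * chi q b c * ψ a b

/-- `B₁`: forget the single window vertex. -/
def B1c (φ : Fin N → K) : K := ∑ j, φ j

/-- The elementary symmetric polynomial of degree `k` in the values `x`. -/
def esymK (x : Fin N → K) (k : ℕ) : K := ∑ S ∈ powersetCard k (univ : Finset (Fin N)), ∏ d ∈ S, x d

/-- `[a]_q = 1 + q + ... + q^(a-1)` in `K`. -/
def qnum (q : K) (a : ℕ) : K := ∑ i ∈ range a, q ^ i

/-- The basis `u_a` of one-colour states: `u_0 = 0`, `u_(a+1) = e_a x - y u_a`. -/
def uc (q : K) (x : Fin N → K) : ℕ → Fin N → K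
  | 0 => 0
  | a + 1 => fun j => esymK x a * x j - Yc q x (uc q x a) j

end P066
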