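import Vale.Agent.Lib.P066.Concrete

/-!
# P066: the main induction along the vertices
-/

namespace P066

open Finset

variable (h : ℕ → ℕ)

/-- Total weight of colourings of the first `k` vertices, all `N`. -/
noncomputable def Z0F (k : ℕ) : Fam := fun N => Z0 (qF N) (xF N) h k
/-- The same with the colour of the last vertex fixed. -/
noncomputable def Z1F (k : ℕ) : M1F := fun N => Z1 (qF N) (xF N) h k
/-- The same with the colours of the last two vertices fixed. -/
noncomputable def Z2F (k : ℕ) : M2F := fun N => Z2 (qF N) (xF N) h k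

theorem Z0F_zero : Z0F h 0 = 1 := by
  funext N; exact Z0_zero _ _ _

theorem Z0F_succ (k : ℕ) : Z0F h (k + 1) = algF.B1 (Z1F h k) := by
  funext N; exact Z0_succ _ _ _ _

theorem Z1F_of_Z0 (k : ℕ) (hk : ∀ a < k, h a < k) : Z1F h k = Z0F h k • algF.u1 := by
  funext N c
  have := congrFun (Z1_of_Z0 (qF N) (xF N) h k hk) c
  exact this

theorem Z2F_of_one (j : ℕ) (h1 : j + 1 ≤ h j) (h2 : ∀ a < j, h a < j + 1) :
    Z2F h j = algF.A (Z1F h j) := by
  funext N; exact Z2_of_one _ _ _ _ h1 h2

theorem Z2F_succ (hmono : Monotone h) (hup : ∀ i, h i ≤ i + 2) (j : ℕ) (h2 : j + 2 ≤ h j) :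
    Z2F h (j + 1) = algF.pi (Z2F h j) + algF.A (algF.B (Z2F h j)) := by
  funext N b c
  have h3 := congrFun (congrFun (Z2_succ (qF N) (xF N) h hmono hup j h2) b) c
  have h4 := congrFun (congrFun (T2c_eq (qF N) (xF N) (Z2 (qF N) (xF N) h j)) b) c
  exact h3.trans h4

theorem Z1F_marg (j : ℕ) (h1 : j + 1 ≤ h j) : Z1F h (j + 1) = algF.B (Z2F h j) := by
  funext N; exact Z1_marg _ _ _ _ h1

/-- The induction along the vertices. -/
theorem main_inv (hmono : Monotone h) (hup : ∀ i, h i ≤ i + 2) (k : ℕ) :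
    Z0F h k ∈ algF.C0 k ∧ (∀ j, k = j + 1 → Z1F h j ∈ algF.C1 (j + 1)) ∧
      (∀ i, k = i + 2 → i + 1 ≤ h i → Z2F h i ∈ algF.C2 (i + 2)) := by
  induction k with
  | zero =>
    refine ⟨?_, fun j hj => by omega, fun i hi => by omega⟩
    rw [Z0F_zero]
    exact algF.C0_mem_of_gen algF.gen_one
  | succ k ih =>
    obtain ⟨ih0, ih1, ih2⟩ := ih
    have hZ2 : ∀ i, k + 1 = i + 2 → i + 1 ≤ h i → Z2F h i ∈ algF.C2 (i + 2) := by
      intro i hi hedge
      by_cases holder : ∃ i', i = i' + 1 ∧ i' + 2 ≤ h i'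
      · obtain ⟨i', rfl, hi'⟩ := holder
        rw [Z2F_succ h hmono hup i' hi']
        exact algF.C2_T2 (ih2 i' (by omega) (by omega))
      · have h2 : ∀ a < i, h a < i + 1 := by
          intro a ha
          obtain ⟨i', rfl⟩ : ∃ i', i = i' + 1 := ⟨i - 1, by omega⟩
          have h3 : h a ≤ h i' := hmono (by omega)
          have h4 : ¬ (i' + 2 ≤ h i') := fun hc => holder ⟨i', rfl, hc⟩
          omega
        rw [Z2F_of_one h i hedge h2]
        exact algF.C1_A (ih1 i (by omega))
    have hZ1 : Z1F h k ∈ algF.C1 (k + 1) := by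
      cases k with
      | zero =>
        rw [Z1F_of_Z0 h 0 (fun a ha => by omega)]
        exact algF.C0_to_C1 ih0
      | succ j =>
        by_cases hedge : j + 1 ≤ h j
        · rw [Z1F_marg h j hedge]
          exact algF.C2_B (hZ2 j (by omega) hedge)
        · have h2 : ∀ a < j + 1, h a < j + 1 := by
            intro a ha
            have h3 : h a ≤ h j := hmono (by omega)
            omega
          rw [Z1F_of_Z0 h (j + 1) h2]
          exact algF.C0_to_C1 ih0
    refine ⟨?_, ?_, hZ2⟩
    · rw [Z0F_succ]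
      exact algF.C1_B1 hZ1
    · intro j hj
      obtain rfl : k = j := by omega
      exact hZ1

/-- The main theorem in the fraction fields. -/
theorem main_exists (hmono : Monotone h) (hup : ∀ i, h i ≤ i + 2) (n : ℕ) :
    ∃ c : Nat.Partition n → Polynomial ℕ, ∀ N,
      Z0 (qF N) (xF N) h n = ∑ p : Nat.Partition n,
        Polynomial.eval₂ (Nat.castRingHom (FN N)) (qF N) (c p)
          * (p.parts.map (esymK (xF N))).prod := by
  obtain ⟨c, hc⟩ := algF.C0_exists (main_inv h hmono hup n).1
  refine ⟨c, fun N => ?_⟩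
  have h1 := congrFun hc N
  have h2 : Z0F h n N = Z0 (qF N) (xF N) h n := rfl
  rw [← h2, h1, Finset.sum_apply]
  refine Finset.sum_congr rfl (fun p _ => ?_)
  rw [Pi.mul_apply]
  congr 1
  · have h3 := Polynomial.hom_eval₂ (c p) (Nat.castRingHom Fam) (Pi.evalRingHom FN N) algF.q
    have h4 : (Pi.evalRingHom FN N).comp (Nat.castRingHom Fam) = Nat.castRingHom (FN N) :=
      Subsingleton.elim _ _
    rw [h4] at h3
    exact h3
  · have h5 := map_multiset_prod (Pi.evalRingHom FN N) (p.parts.map algF.e)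
    rw [Multiset.map_map] at h5
    exact h5

end P066
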